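import Mathlib

/-!
# Row 330, S/Abs: abstract Hilbert space part (compact form embedding, invariant sector)
-/

set_option autoImplicit false

noncomputable section

open Filter Topology
open scoped InnerProductSpace

namespace Crest.Agent.R330.S

variable {V H : Type} [NormedAddCommGroup V] [InnerProductSpace ℂ V] [CompleteSpace V]
  [NormedAddCommGroup H] [InnerProductSpace ℂ H] [CompleteSpace H]

/-- Ehrling type inequality -/
def Ehr (ι : V →L[ℂ] H) : Prop := ∀ ε : ℝ, 0 < ε → ∃ (I : Type) (_ : Fintype I) (g : I → H) (K : ℝ),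
  0 ≤ K ∧ ∀ v, ‖ι v‖ ^ 2 ≤ ε * ‖v‖ ^ 2 + K * ∑ i, ‖⟪g i, ι v⟫_ℂ‖ ^ 2

omit [CompleteSpace V] in
theorem Ehr.isCompactOperator {ι : V →L[ℂ] H} (h : Ehr ι) : IsCompactOperator ι := by
  have key : TotallyBounded (ι '' Metric.closedBall 0 1) := by
    rw [Metric.totallyBounded_iff]
    intro ε hε
    obtain ⟨I, _, g, K, hK, hg⟩ := h (ε ^ 2 / 8) (by positivity)
    let L : V →L[ℂ] (I → ℂ) := ContinuousLinearMap.pi fun i => (innerSL ℂ (g i)).comp ι
    have hL : TotallyBounded (L '' Metric.closedBall 0 1) :=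
      ((L.lipschitz.isBounded_image Metric.isBounded_closedBall).isCompact_closure.totallyBounded).subset
        subset_closure
    set N : ℝ := K * Fintype.card I + 1 with hN
    have hN0 : 0 < N := by positivity
    obtain ⟨t, ht, htf, htc⟩ := Metric.finite_approx_of_totallyBounded hL (ε / (2 * N))
      (by positivity)
    obtain ⟨t', ht', ht'f, rfl⟩ := Set.exists_subset_image_finite_and.1 ⟨t, ht, htf, (rfl : t = t)⟩
    refine ⟨ι '' t', ht'f.image _, ?_⟩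
    rintro _ ⟨v, hv, rfl⟩
    obtain ⟨_, ⟨w, hw, rfl⟩, hvw⟩ := Set.mem_iUnion₂.1 (htc ⟨v, hv, rfl⟩)
    refine Set.mem_iUnion₂.2 ⟨ι w, ⟨w, hw, rfl⟩, ?_⟩
    rw [Metric.mem_ball, dist_eq_norm, ← map_sub] at hvw ⊢
    have h1 := hg (v - w)
    have h2 : ‖v - w‖ ≤ 2 := by
      have e1 := mem_closedBall_zero_iff.1 hv
      have e2 := mem_closedBall_zero_iff.1 (ht' hw)
      linarith [norm_sub_le v w]
    have h3 : ∑ i, ‖⟪g i, ι (v - w)⟫_ℂ‖ ^ 2 ≤ Fintype.card I * (ε / (2 * N)) ^ 2 := by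
      rw [← Finset.card_univ, ← nsmul_eq_mul]
      refine Finset.sum_le_card_nsmul _ _ _ fun i _ => pow_le_pow_left₀ (norm_nonneg _) ?_ 2
      exact (norm_le_pi_norm (L (v - w)) i).trans hvw.le
    have h4 : K * (Fintype.card I * (ε / (2 * N)) ^ 2) ≤ ε ^ 2 / 4 := by
      have e1 : K * Fintype.card I ≤ N ^ 2 := by
        have : 0 ≤ K * Fintype.card I := by positivity
        nlinarith
      calc K * (Fintype.card I * (ε / (2 * N)) ^ 2) = K * Fintype.card I * (ε / (2 * N)) ^ 2 := by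
            ring
        _ ≤ N ^ 2 * (ε / (2 * N)) ^ 2 := by gcongr
        _ = ε ^ 2 / 4 := by field_simp; ring
    have h5 : ‖v - w‖ ^ 2 ≤ 4 := by nlinarith [norm_nonneg (v - w)]
    have h6 : ‖ι (v - w)‖ ^ 2 < ε ^ 2 := by
      have := mul_le_mul_of_nonneg_left h3 hK
      have := mul_le_mul_of_nonneg_left h5 (show 0 ≤ ε ^ 2 / 8 by positivity)
      nlinarith [sq_pos_of_pos hε]
    exact lt_of_pow_lt_pow_left₀ 2 hε.le h6
  exact (isCompactOperator_iff_isCompact_closure_image_closedBall (ι : V →ₗ[ℂ] H) one_pos).2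
    (key.closure.isCompact_of_isClosed isClosed_closure)

theorem exists_next {ι : V →L[ℂ] H} (h : IsCompactOperator ι) {u : ℕ → V}
    (hu : LinearIndependent ℂ fun n => ι (u n)) (s : Finset V)
    (hs : ∀ x ∈ s, ∃ l : ℝ, ∀ w, ⟪ι x, ι w⟫_ℂ = l * ⟪x, w⟫_ℂ) :
    ∃ y : V, (‖y‖ = 1 ∧ ∃ l : ℝ, 0 < l ∧ ∀ w, ⟪ι y, ι w⟫_ℂ = l * ⟪y, w⟫_ℂ) ∧
      ∀ x ∈ s, ⟪x, y⟫_ℂ = 0 := by
  classical
  let T : V →L[ℂ] V := (ContinuousLinearMap.adjoint ι).comp ι
  have hT : ∀ v w, ⟪v, T w⟫_ℂ = ⟪ι v, ι w⟫_ℂ := fun v w =>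
    ContinuousLinearMap.adjoint_inner_right ι v (ι w)
  have hT' : ∀ v w, ⟪T v, w⟫_ℂ = ⟪ι v, ι w⟫_ℂ := fun v w =>
    ContinuousLinearMap.adjoint_inner_left ι w (ι v)
  have hTc : IsCompactOperator T := h.clm_comp (ContinuousLinearMap.adjoint ι)
  have hTs : (T : V →ₗ[ℂ] V).IsSymmetric := fun v w => (hT' v w).trans (hT v w).symm
  let W : Submodule ℂ V := (Submodule.span ℂ (s : Set V))ᗮ
  have hW : ∀ w, w ∈ W ↔ ∀ x ∈ s, ⟪x, w⟫_ℂ = 0 := by
    intro w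
    constructor
    · exact fun hw x hx => Submodule.inner_right_of_mem_orthogonal (Submodule.subset_span hx) hw
    · intro hw
      rw [Submodule.mem_orthogonal]
      intro x hx
      induction hx using Submodule.span_induction with
      | mem x hx => exact hw x hx
      | zero => simp
      | add x y _ _ h1 h2 => simp [inner_add_left, h1, h2]
      | smul a x _ h1 => simp [inner_smul_left, h1]
  have hinv : ∀ w ∈ W, T w ∈ W := by
    intro w hw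
    rw [hW] at hw ⊢
    intro x hx
    obtain ⟨l, hl⟩ := hs x hx
    rw [hT, hl, hw x hx, mul_zero]
  let S : W →L[ℂ] W := T.restrict hinv
  have hSc : IsCompactOperator S := hTc.restrict' hinv
  have hSs : (S : W →ₗ[ℂ] W).IsSymmetric := hTs.restrict_invariant hinv
  have hS0 : S ≠ 0 := by
    intro h0
    have hι : ∀ w ∈ W, ι w = 0 := by
      intro w hw
      have e0 : S ⟨w, hw⟩ = 0 := by rw [h0]; rfl
      have e1 : T w = 0 := congrArg Subtype.val e0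
      have e2 := hT w w
      rw [e1, inner_zero_right] at e2
      exact inner_self_eq_zero.1 e2.symm
    let P : Submodule ℂ H := (Submodule.span ℂ (s : Set V)).map (ι : V →ₗ[ℂ] H)
    have hP : ∀ v, ι v ∈ P := by
      intro v
      obtain ⟨a, ha, b, hb, rfl⟩ := Submodule.exists_add_mem_mem_orthogonal
        (K := Submodule.span ℂ (s : Set V)) v
      rw [map_add, hι b hb, add_zero]
      exact ⟨a, ha, rfl⟩
    have hli : LinearIndependent ℂ fun n => (⟨ι (u n), hP _⟩ : P) :=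
      LinearIndependent.of_comp P.subtype hu
    exact Module.Finite.not_linearIndependent_of_infinite _ hli
  have := (ContinuousLinearMap.eq_zero_of_forall_hasEigenvalue_eq_zero hSc hSs).not.2 hS0
  push Not at this
  obtain ⟨μ, hμ, hμ0⟩ := this
  obtain ⟨w, hw⟩ := hμ.exists_hasEigenvector
  have hw0 : (w : V) ≠ 0 := fun h0 => hw.2 (Subtype.ext h0)
  have hw1 : T w = μ • (w : V) := congrArg Subtype.val hw.apply_eq_smul
  have hn : 0 < ‖(w : V)‖ := norm_pos_iff.2 hw0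
  have hμ1 : μ = ((‖ι w‖ ^ 2 / ‖(w : V)‖ ^ 2 : ℝ) : ℂ) := by
    have e := hT w w
    rw [hw1, inner_smul_right, inner_self_eq_norm_sq_to_K, inner_self_eq_norm_sq_to_K] at e
    have : ((‖(w : V)‖ : ℂ)) ≠ 0 := by exact_mod_cast hn.ne'
    push_cast
    rw [eq_div_iff (pow_ne_zero 2 this)]
    exact e
  refine ⟨((‖(w : V)‖⁻¹ : ℝ) : ℂ) • (w : V), ⟨?_, ‖ι w‖ ^ 2 / ‖(w : V)‖ ^ 2, ?_, fun v => ?_⟩,
    fun x hx => ?_⟩
  · rw [norm_smul, Complex.norm_real, norm_inv, norm_norm, inv_mul_cancel₀ hn.ne']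
  · refine lt_of_le_of_ne (by positivity) fun h0 => hμ0 ?_
    rw [hμ1, ← h0, Complex.ofReal_zero]
  · rw [map_smul, inner_smul_left, inner_smul_left, ← hT', hw1, inner_smul_left, hμ1,
      Complex.conj_ofReal, Complex.conj_ofReal]
    ring
  · rw [inner_smul_right, (hW w).1 w.2 x hx, mul_zero]

theorem exists_eig {ι : V →L[ℂ] H} (h : Ehr ι) {u : ℕ → V}
    (hu : LinearIndependent ℂ fun n => ι (u n)) :
    ∃ (v : ℕ → V) (l : ℕ → ℝ), Orthonormal ℂ v ∧ (∀ j, 0 < l j) ∧ Tendsto l atTop (𝓝 0) ∧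
      ∀ j w, ⟪ι (v j), ι w⟫_ℂ = l j * ⟪v j, w⟫_ℂ := by
  obtain ⟨v, hv, hv'⟩ := exists_seq_of_forall_finset_exists
    (fun y : V => ‖y‖ = 1 ∧ ∃ l : ℝ, 0 < l ∧ ∀ w, ⟪ι y, ι w⟫_ℂ = l * ⟪y, w⟫_ℂ)
    (fun x y => ⟪x, y⟫_ℂ = 0) fun s hs => exists_next h.isCompactOperator hu s fun x hx => by
      obtain ⟨-, l, -, hl⟩ := hs x hx
      exact ⟨l, hl⟩
  choose hv1 l hl0 hl using hv
  have hon : Orthonormal ℂ v := by
    refine ⟨hv1, fun i j hij => ?_⟩
    rcases lt_or_gt_of_ne hij with hlt | hlt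
    · exact hv' i j hlt
    · exact inner_eq_zero_symm.1 (hv' j i hlt)
  refine ⟨v, l, hon, hl0, ?_, hl⟩
  have hnorm : ∀ j, ‖ι (v j)‖ ^ 2 = l j := by
    intro j
    have e := hl j (v j)
    rw [inner_self_eq_norm_sq_to_K, inner_self_eq_norm_sq_to_K, hv1] at e
    simp only [Complex.coe_algebraMap, Complex.ofReal_one, one_pow, mul_one] at e
    exact_mod_cast e
  rw [Metric.tendsto_atTop]
  intro ε hε
  obtain ⟨I, _, g, K, hK, hg⟩ := h (ε / 2) (by positivity)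
  have h1 : Tendsto (fun j => K * ∑ i, ‖⟪g i, ι (v j)⟫_ℂ‖ ^ 2) atTop (𝓝 (K * ∑ _i : I, 0)) := by
    refine (tendsto_finsetSum _ fun i _ => ?_).const_mul K
    have := (hon.inner_products_summable (x := ContinuousLinearMap.adjoint ι (g i))).tendsto_atTop_zero
    refine this.congr fun j => ?_
    rw [ContinuousLinearMap.adjoint_inner_right, norm_inner_symm]
  simp only [Finset.sum_const_zero, mul_zero] at h1
  obtain ⟨N, hN⟩ := eventually_atTop.1 (h1.eventually (eventually_lt_nhds (half_pos hε)))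
  refine ⟨N, fun j hj => ?_⟩
  have e1 := hg (v j)
  have e2 := hN j hj
  rw [hnorm, hv1] at e1
  rw [Real.dist_eq, sub_zero, abs_of_pos (hl0 j)]
  linarith

/-- The abstract theorem. -/
theorem abstract {D A : Type} [AddCommGroup D] [Module ℂ D] (j Q : D →ₗ[ℂ] H) (D₀ : Submodule ℂ D)
    (hE : ∀ ε : ℝ, 0 < ε → ∃ (I : Type) (_ : Fintype I) (g : I → H) (K : ℝ), 0 ≤ K ∧ ∀ φ ∈ D₀,
      ‖j φ‖ ^ 2 ≤ ε * (‖j φ‖ ^ 2 + ‖Q φ‖ ^ 2) + K * ∑ i, ‖⟪g i, j φ⟫_ℂ‖ ^ 2)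
    {u : ℕ → D} (hu₀ : ∀ n, u n ∈ D₀) (hu : LinearIndependent ℂ fun n => j (u n))
    (U : A → D → D) (hUj : ∀ a φ ψ, ⟪j (U a φ), j (U a ψ)⟫_ℂ = ⟪j φ, j ψ⟫_ℂ)
    (hUQ : ∀ a φ ψ, ⟪Q (U a φ), Q (U a ψ)⟫_ℂ = ⟪Q φ, Q ψ⟫_ℂ) (hU₀ : ∀ a, ∀ φ ∈ D₀, U a φ = φ)
    (hWS : ∀ (ρ : ℕ → D) (R g : H), Tendsto (fun n => j (ρ n)) atTop (𝓝 R) →
      Tendsto (fun n => Q (ρ n)) atTop (𝓝 g) →
      (∀ a, Tendsto (fun n => j (U a (ρ n)) - j (ρ n)) atTop (𝓝 0)) →
      ∃ φ : ℕ → D, (∀ n, φ n ∈ D₀) ∧ Tendsto (fun n => j (φ n)) atTop (𝓝 R) ∧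
        Tendsto (fun n => Q (φ n)) atTop (𝓝 g)) :
    ∃ (Ψ : ℕ → H) (En : ℕ → ℝ), Orthonormal ℂ Ψ ∧ (∀ n, 0 < En n) ∧ Tendsto En atTop atTop ∧
      ∀ n, ∃ (φ : ℕ → D) (h : H), Tendsto (fun m => j (φ m)) atTop (𝓝 (Ψ n)) ∧
        Tendsto (fun m => Q (φ m)) atTop (𝓝 h) ∧ ∀ ψ, ⟪h, Q ψ⟫_ℂ = En n * ⟪Ψ n, j ψ⟫_ℂ := by
  let G : D →ₗ[ℂ] WithLp 2 (H × H) :=
    (WithLp.linearEquiv 2 ℂ (H × H)).symm.toLinearMap ∘ₗ (j.prod Q)
  have G1 : ∀ φ, (G φ).fst = j φ := fun φ => rfl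
  have G2 : ∀ φ, (G φ).snd = Q φ := fun φ => rfl
  have hin : ∀ p q : WithLp 2 (H × H), ⟪p, q⟫_ℂ = ⟪p.fst, q.fst⟫_ℂ + ⟪p.snd, q.snd⟫_ℂ :=
    fun p q => WithLp.prod_inner_apply p q
  have c1 : Continuous fun p : WithLp 2 (H × H) => p.fst := WithLp.continuous_fst 2 H H
  have c2 : Continuous fun p : WithLp 2 (H × H) => p.snd := WithLp.continuous_snd 2 H H
  have htend : ∀ (φ : ℕ → D) (p : WithLp 2 (H × H)), Tendsto (fun n => j (φ n)) atTop (𝓝 p.fst) →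
      Tendsto (fun n => Q (φ n)) atTop (𝓝 p.snd) → Tendsto (fun n => G (φ n)) atTop (𝓝 p) := by
    intro φ p h1 h2
    exact ((WithLp.prod_continuous_toLp 2 H H).tendsto (p.fst, p.snd)).comp (h1.prodMk_nhds h2)
  let V₁ := (LinearMap.range G).topologicalClosure
  let V₀ := (D₀.map G).topologicalClosure
  have : CompleteSpace V₀ := (Submodule.isClosed_topologicalClosure _).completeSpace_coe
  have : CompleteSpace V₁ := (Submodule.isClosed_topologicalClosure _).completeSpace_coe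
  have seq0 : ∀ p ∈ V₀, ∃ φ : ℕ → D, (∀ n, φ n ∈ D₀) ∧ Tendsto (fun n => G (φ n)) atTop (𝓝 p) := by
    intro p hp
    obtain ⟨x, hx, hx'⟩ := mem_closure_iff_seq_limit.1 hp
    choose φ hφ hφ' using hx
    exact ⟨φ, hφ, hx'.congr fun n => (hφ' n).symm⟩
  have seq1 : ∀ p ∈ V₁, ∃ φ : ℕ → D, Tendsto (fun n => G (φ n)) atTop (𝓝 p) := by
    intro p hp
    obtain ⟨x, hx, hx'⟩ := mem_closure_iff_seq_limit.1 hp
    choose φ hφ' using hx
    exact ⟨φ, hx'.congr fun n => (hφ' n).symm⟩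
  have mem0 : ∀ φ ∈ D₀, G φ ∈ V₀ := fun φ hφ => Submodule.le_topologicalClosure _ ⟨φ, hφ, rfl⟩
  have mem1 : ∀ φ, G φ ∈ V₁ := fun φ => Submodule.le_topologicalClosure _ ⟨φ, rfl⟩
  let ι : V₀ →L[ℂ] H := (WithLp.fstL 2 ℂ H H).comp V₀.subtypeL
  have hι : ∀ v : V₀, ι v = (v : WithLp 2 (H × H)).fst := fun v => rfl
  have hEhr : Ehr ι := by
    intro ε hε
    obtain ⟨I, hI, g, K, hK, hg⟩ := hE ε hε
    refine ⟨I, hI, g, K, hK, fun v => ?_⟩
    obtain ⟨φ, hφ, hφ'⟩ := seq0 v v.2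
    have t1 := (c1.tendsto _).comp hφ'
    refine le_of_tendsto_of_tendsto' (t1.norm.pow 2)
      (((hφ'.norm.pow 2).const_mul ε).add ((tendsto_finsetSum _ fun i _ =>
        ((tendsto_const_nhds.inner t1).norm.pow 2)).const_mul K)) fun n => ?_
    have := hg _ (hφ n)
    rwa [← G1, ← G2, ← WithLp.prod_norm_sq_eq_of_L2] at this
  obtain ⟨v, l, hv, hl0, hl, hvl⟩ := exists_eig hEhr (u := fun n => ⟨G (u n), mem0 _ (hu₀ n)⟩) hu
  -- the eigenvalue equation holds on the whole of `D`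
  have hGU : ∀ a φ ψ, ⟪G (U a φ), G (U a ψ)⟫_ℂ = ⟪G φ, G ψ⟫_ℂ := by
    intro a φ ψ
    rw [hin, hin, G1, G1, G1, G1, G2, G2, G2, G2, hUj, hUQ]
  have main : ∀ n ψ, ⟪(v n : WithLp 2 (H × H)).snd, Q ψ⟫_ℂ =
      ((1 / l n - 1 : ℝ) : ℂ) * ⟪(v n : WithLp 2 (H × H)).fst, j ψ⟫_ℂ := by
    intro n
    set E : ℝ := 1 / l n - 1 with hEdef
    let p : WithLp 2 (H × H) := WithLp.toLp 2
      (-(E : ℂ) • (v n : WithLp 2 (H × H)).fst, (v n : WithLp 2 (H × H)).snd)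
    have hp : ∀ w, ⟪p, w⟫_ℂ = ⟪(v n : WithLp 2 (H × H)).snd, w.snd⟫_ℂ -
        E * ⟪(v n : WithLp 2 (H × H)).fst, w.fst⟫_ℂ := by
      intro w
      rw [hin]
      show ⟪-(E : ℂ) • (v n : WithLp 2 (H × H)).fst, w.fst⟫_ℂ +
        ⟪(v n : WithLp 2 (H × H)).snd, w.snd⟫_ℂ = _
      rw [inner_smul_left, map_neg, Complex.conj_ofReal]
      ring
    have hp0 : ∀ w ∈ V₀, ⟪p, w⟫_ℂ = 0 := by
      intro w hw
      have e := hvl n ⟨w, hw⟩
      rw [hι, hι, Submodule.coe_inner, hin] at e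
      have e0 : (l n : ℂ) ≠ 0 := by exact_mod_cast (hl0 n).ne'
      rw [hp, hEdef]
      push_cast
      field_simp
      simp only at e
      linear_combination -e
    obtain ⟨φ, hφ, hφ'⟩ := seq0 (v n) (v n).2
    have hpU : ∀ a ψ, ⟪p, G (U a ψ)⟫_ℂ = ⟪p, G ψ⟫_ℂ := by
      intro a ψ
      have t1 := (c1.tendsto _).comp hφ'
      have t2 := (c2.tendsto _).comp hφ'
      have lim : ∀ χ : D, Tendsto (fun m => ⟪Q (φ m), Q χ⟫_ℂ - E * ⟪j (φ m), j χ⟫_ℂ) atTop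
          (𝓝 ⟪p, G χ⟫_ℂ) := by
        intro χ
        rw [hp]
        exact (t2.inner tendsto_const_nhds).sub ((t1.inner tendsto_const_nhds).const_mul _)
      refine tendsto_nhds_unique (lim (U a ψ)) ((lim ψ).congr fun m => ?_)
      rw [← hUQ a, ← hUj a, hU₀ a _ (hφ m)]
    let r : WithLp 2 (H × H) := V₁.starProjection p
    have hr1 : r ∈ V₁ := V₁.starProjection_apply_mem p
    have hr : ∀ w ∈ V₁, ⟪r, w⟫_ℂ = ⟪p, w⟫_ℂ := by
      intro w hw
      have := V₁.starProjection_inner_eq_zero p w hw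
      rw [inner_sub_left] at this
      exact (sub_eq_zero.1 this).symm
    obtain ⟨ρ, hρ⟩ := seq1 r hr1
    have hUρ : ∀ a χ, ‖G (U a χ) - G χ‖ ≤ 2 * ‖G χ - r‖ := by
      intro a χ
      have e1 : ⟪r, G χ - G (U a χ)⟫_ℂ = 0 := by
        rw [inner_sub_right, hr _ (mem1 _), hr _ (mem1 _), hpU, sub_self]
      have e2 : ‖G (U a χ)‖ ^ 2 = ‖G χ‖ ^ 2 := by
        rw [← inner_self_eq_norm_sq (𝕜 := ℂ), ← inner_self_eq_norm_sq (𝕜 := ℂ), hGU]
      have e3 : ‖G χ - G (U a χ)‖ ^ 2 = 2 * (⟪G χ - r, G χ - G (U a χ)⟫_ℂ).re := by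
        rw [inner_sub_left, e1, sub_zero, norm_sub_sq (𝕜 := ℂ), e2, inner_sub_right, Complex.sub_re,
          ← inner_self_eq_norm_sq (𝕜 := ℂ)]
        simp only [RCLike.re_to_complex]
        ring
      have e4 : (⟪G χ - r, G χ - G (U a χ)⟫_ℂ).re ≤ ‖G χ - r‖ * ‖G χ - G (U a χ)‖ :=
        (Complex.re_le_norm _).trans (norm_inner_le_norm _ _)
      rw [norm_sub_rev]
      by_contra hlt
      push Not at hlt
      have := norm_nonneg (G χ - r)
      nlinarith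
    obtain ⟨φ', hφ'0, hφ'1, hφ'2⟩ := hWS ρ r.fst r.snd ((c1.tendsto _).comp hρ)
      ((c2.tendsto _).comp hρ) fun a => by
        have t0 : Tendsto (fun m => G (U a (ρ m)) - G (ρ m)) atTop (𝓝 0) := by
          refine squeeze_zero_norm (fun m => hUρ a (ρ m)) ?_
          have := (tendsto_iff_norm_sub_tendsto_zero.1 hρ).const_mul 2
          simpa using this
        exact (c1.tendsto _).comp t0
    have hr0 : r ∈ V₀ := (Submodule.isClosed_topologicalClosure _).mem_of_tendsto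
      (htend φ' r hφ'1 hφ'2) (Eventually.of_forall fun m => mem0 _ (hφ'0 m))
    have hr00 : r = 0 := inner_self_eq_zero.1 ((hr r hr1).trans (hp0 r hr0))
    intro ψ
    have e := hr _ (mem1 ψ)
    rw [hr00, inner_zero_left, hp, G1, G2] at e
    exact sub_eq_zero.1 e.symm
  obtain ⟨N, hN⟩ := eventually_atTop.1 (hl.eventually (eventually_lt_nhds one_pos))
  have hsq : ∀ n, 0 < √(l n) := fun n => Real.sqrt_pos.2 (hl0 n)
  refine ⟨fun n => (((√(l (n + N)))⁻¹ : ℝ) : ℂ) • (v (n + N) : WithLp 2 (H × H)).fst,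
    fun n => 1 / l (n + N) - 1, ?_, fun n => ?_, ?_, fun n => ?_⟩
  · classical
    rw [orthonormal_iff_ite]
    intro a b
    rw [inner_smul_left, inner_smul_right, ← hι, ← hι, hvl, orthonormal_iff_ite.1 hv,
      Complex.conj_ofReal]
    by_cases hab : a = b
    · subst hab
      rw [if_pos rfl, if_pos rfl]
      have e := Real.mul_self_sqrt (hl0 (a + N)).le
      have e' := (hsq (a + N)).ne'
      have : (√(l (a + N)))⁻¹ * ((√(l (a + N)))⁻¹ * (l (a + N) * 1)) = 1 := by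
        field_simp
        nlinarith
      exact_mod_cast this
    · rw [if_neg hab, if_neg (by omega)]
      simp
  · have := hN (n + N) (by omega)
    have := hl0 (n + N)
    rw [sub_pos, lt_div_iff₀ this]
    linarith
  · have t1 : Tendsto (fun n => l (n + N)) atTop (𝓝[>] 0) :=
      tendsto_nhdsWithin_iff.2 ⟨hl.comp (tendsto_add_atTop_nat N),
        Eventually.of_forall fun n => hl0 _⟩
    have t2 := tendsto_atTop_add_const_right _ (-1) (tendsto_inv_nhdsGT_zero.comp t1)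
    refine t2.congr fun n => ?_
    simp [sub_eq_add_neg]
  · obtain ⟨φ, -, hφ'⟩ := seq0 (v (n + N)) (v (n + N)).2
    refine ⟨fun m => (((√(l (n + N)))⁻¹ : ℝ) : ℂ) • φ m,
      (((√(l (n + N)))⁻¹ : ℝ) : ℂ) • (v (n + N) : WithLp 2 (H × H)).snd, ?_, ?_, fun ψ => ?_⟩
    · simp only [map_smul]
      exact ((c1.tendsto _).comp hφ').const_smul _
    · simp only [map_smul]
      exact ((c2.tendsto _).comp hφ').const_smul _
    · rw [inner_smul_left, inner_smul_left, main]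
      ring

end Crest.Agent.R330.S

end
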