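import Crest.Agent.R330.Defs

/-! # Row 330, S/L2: `L²` bookkeeping (owner helper60) -/

set_option autoImplicit false
set_option linter.unusedSectionVars false

noncomputable section

open MeasureTheory Filter Topology
open scoped InnerProductSpace ContDiff Matrix

namespace Crest.Agent.R330.S

section L2

variable {Y F : Type} [NormedAddCommGroup Y] [InnerProductSpace ℝ Y] [FiniteDimensional ℝ Y]
  [MeasurableSpace Y] [BorelSpace Y]
  [NormedAddCommGroup F] [InnerProductSpace ℂ F] [FiniteDimensional ℂ F]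

theorem inner_toLp_right (g : Lp F 2 (volume : Measure Y)) {φ : Y → F} (hφ : MemLp φ 2 volume) :
    ⟪g, hφ.toLp φ⟫_ℂ = ∫ x, ⟪g x, φ x⟫_ℂ := by
  rw [L2.inner_def]
  refine integral_congr_ae ?_
  filter_upwards [hφ.coeFn_toLp] with x hx
  rw [hx]

theorem inner_toLp {φ ψ : Y → F} (hφ : MemLp φ 2 volume) (hψ : MemLp ψ 2 volume) :
    ⟪hφ.toLp φ, hψ.toLp ψ⟫_ℂ = ∫ x, ⟪φ x, ψ x⟫_ℂ := by
  rw [inner_toLp_right]
  refine integral_congr_ae ?_
  filter_upwards [hφ.coeFn_toLp] with x hx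
  rw [hx]

theorem norm_toLp_sq {φ : Y → F} (hφ : MemLp φ 2 volume) :
    ‖hφ.toLp φ‖ ^ 2 = ∫ x, ‖φ x‖ ^ 2 := by
  have h := inner_toLp hφ hφ
  simp only [inner_self_eq_norm_sq_to_K, Complex.coe_algebraMap, ← Complex.ofReal_pow] at h
  rw [integral_complex_ofReal] at h
  exact_mod_cast h

theorem tendsto_toLp_iff {φ : ℕ → Y → F} (hφ : ∀ n, MemLp (φ n) 2 volume)
    (g : Lp F 2 (volume : Measure Y)) :
    Tendsto (fun n => (hφ n).toLp (φ n)) atTop (𝓝 g) ↔
      Tendsto (fun n => eLpNorm (φ n - ⇑g) 2 volume) atTop (𝓝 0) := by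
  rw [← Lp.tendsto_Lp_iff_tendsto_eLpNorm'' φ hφ g (Lp.memLp g), Lp.toLp_coeFn]

theorem tendsto_integral_inner {φ : ℕ → Y → F} (hφ : ∀ n, MemLp (φ n) 2 volume) {Ψ g : Y → F}
    (hΨ : MemLp Ψ 2 volume) (hg : MemLp g 2 volume)
    (h : Tendsto (fun n => eLpNorm (φ n - Ψ) 2 volume) atTop (𝓝 0)) :
    Tendsto (fun n => ∫ x, ⟪φ n x, g x⟫_ℂ) atTop (𝓝 (∫ x, ⟪Ψ x, g x⟫_ℂ)) := by
  have := ((Lp.tendsto_Lp_iff_tendsto_eLpNorm'' φ hφ Ψ hΨ).2 h).inner (𝕜 := ℂ)
    (tendsto_const_nhds (x := hg.toLp g))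
  simpa only [inner_toLp] using this

theorem exists_iso (R : Y →L[ℝ] Y) (hR : ∀ x, ‖R x‖ = ‖x‖) : ∃ e : Y ≃ₗᵢ[ℝ] Y, ∀ x, e x = R x :=
  ⟨LinearIsometry.toLinearIsometryEquiv ⟨R.toLinearMap, hR⟩ rfl, fun _ => rfl⟩

theorem measurePreserving_iso (R : Y →L[ℝ] Y) (hR : ∀ x, ‖R x‖ = ‖x‖) : MeasurePreserving R := by
  obtain ⟨e, he⟩ := exists_iso R hR
  have : (R : Y → Y) = e := funext fun x => (he x).symm
  rw [this]
  exact e.measurePreserving

theorem integral_comp_iso {W : Type} [NormedAddCommGroup W] [NormedSpace ℝ W] (R : Y →L[ℝ] Y)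
    (hR : ∀ x, ‖R x‖ = ‖x‖) (g : Y → W) : ∫ x, g (R x) = ∫ x, g x := by
  obtain ⟨e, he⟩ := exists_iso R hR
  simp only [← he]
  exact e.measurePreserving.integral_comp e.toHomeomorph.measurableEmbedding g

theorem integrable_mul_sq {φ : Y → F} (hφ : Core φ) {a : Y → ℝ} (ha : Continuous a) :
    Integrable fun x => a x * ‖φ x‖ ^ 2 := by
  refine Continuous.integrable_of_hasCompactSupport (ha.mul (hφ.1.continuous.norm.pow 2)) ?_
  refine hφ.2.mono fun x hx h0 => hx ?_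
  simp [h0]

theorem integrable_sq {φ : Y → F} (hφ : Core φ) : Integrable fun x => ‖φ x‖ ^ 2 := by
  simpa using integrable_mul_sq hφ (continuous_const (y := (1 : ℝ)))

theorem continuous_gsq {φ : Y → F} (hφ : Core φ) : Continuous (gsq φ) :=
  continuous_finsetSum _ fun _ _ =>
    (((hφ.1.continuous_fderiv (by simp)).clm_apply continuous_const).norm.pow 2)

theorem integrable_gsq {φ : Y → F} (hφ : Core φ) : Integrable (gsq φ) := by
  refine Continuous.integrable_of_hasCompactSupport (continuous_gsq hφ) ?_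
  refine (hφ.2.fderiv ℝ).mono fun x hx h0 => hx ?_
  simp [gsq, h0]

theorem gsq_nonneg (φ : Y → F) (x : Y) : 0 ≤ gsq φ x := Finset.sum_nonneg fun _ _ => by positivity

end L2

end Crest.Agent.R330.S

end
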