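import Crest.Agent.R330.IA2
import Crest.Agent.R330.IFA
import Crest.Agent.R330.S.L2

/-! # Row 330, S/Sym: the twisted rotations act unitarily on the form domain (owner helper60) -/

set_option autoImplicit false
set_option linter.unusedSectionVars false

noncomputable section

open MeasureTheory Filter Topology
open scoped InnerProductSpace ContDiff Matrix
open Crest.MathPhysics.MatrixQM (GammaNine)

namespace Crest.Agent.R330.S

variable {E F : Type} [NormedAddCommGroup E] [InnerProductSpace ℝ E] [FiniteDimensional ℝ E]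
  [MeasurableSpace E] [BorelSpace E]
  [NormedAddCommGroup F] [InnerProductSpace ℂ F] [FiniteDimensional ℂ F]
  {𝔤 : Lie E} (C : Cl (Th E) F) (σ : Spn)

/-- `U ψ = e^{t(S + ik)} ψ(e^{-tV} ·)`. -/
def rotU (G : GammaNine) (V : Matrix (Fin 9) (Fin 9) ℝ) (k t : ℝ) (ψ : X E → F) (x : X E) : F :=
  NormedSpace.exp ((t : ℂ) • (C.S (mat (sig G V)) + ((k : ℂ) * Complex.I) • 1))
    (ψ (rexp' ((-t) • mat V) x))

variable {V : Matrix (Fin 9) (Fin 9) ℝ}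

theorem two_le_infty : (2 : WithTop ℕ∞) ≤ ∞ := WithTop.coe_le_coe.2 (le_top (a := (2 : ℕ∞)))

theorem exp_split (S : F →L[ℂ] F) (t k : ℝ) :
    NormedSpace.exp ((t : ℂ) • (S + ((k : ℂ) * Complex.I) • 1)) =
      Complex.exp (t * (k * Complex.I)) • NormedSpace.exp ((t : ℂ) • S) := by
  let : NormedAlgebra ℚ (F →L[ℂ] F) := .restrictScalars ℚ ℂ _
  have e : (t : ℂ) • (((k : ℂ) * Complex.I) • (1 : F →L[ℂ] F)) =
      algebraMap ℂ (F →L[ℂ] F) (t * (k * Complex.I)) := by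
    rw [smul_smul, Algebra.algebraMap_eq_smul_one]
  rw [smul_add, add_comm, e, NormedSpace.exp_add_of_commute (Algebra.commute_algebraMap_left _ _),
    ← NormedSpace.algebraMap_exp_comm, ← Complex.exp_eq_exp_ℂ, ← Algebra.smul_def]

theorem rotU_eq (G : GammaNine) (k t : ℝ) (ψ : X E → F) :
    rotU C G V k t ψ = Complex.exp (t * (k * Complex.I)) • fun x =>
      NormedSpace.exp ((t : ℂ) • C.S (mat (sig G V))) (ψ (rexp' ((-t) • mat V) x)) := by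
  funext x
  rw [rotU, exp_split]
  rfl

theorem norm_rot (hV : Vᵀ = -V) (t : ℝ) (x : X E) : ‖rexp' (t • mat V) x‖ = ‖x‖ := by
  refine norm_rexp' (fun u v => ?_) x
  simp only [LinearMap.smul_apply, inner_smul_left, inner_smul_right, isSkew_mat hV u v]
  simp

theorem inner_W (G : GammaNine) (hV : Vᵀ = -V) (t k : ℝ) (a b : F) :
    ⟪NormedSpace.exp ((t : ℂ) • (C.S (mat (sig G V)) + ((k : ℂ) * Complex.I) • 1)) a,
      NormedSpace.exp ((t : ℂ) • (C.S (mat (sig G V)) + ((k : ℂ) * Complex.I) • 1)) b⟫_ℂ =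
      ⟪a, b⟫_ℂ :=
  (LinearMap.norm_map_iff_inner_map_map _).1 (C.norm_exp_S (isSkew_mat (sig_skew G hV)) t k) a b

theorem core_Qe {ψ : X E → F} (h : Core ψ) : Core (Qe 𝔤 C σ 0 ψ) :=
  Core.dirac C _ (contDiff_wd 𝔤 σ 0 contDiff_const) h

theorem Qe_symm {φ ψ : X E → F} (hφ : Core φ) (hψ : Core ψ) :
    ∫ x, ⟪Qe 𝔤 C σ 0 φ x, ψ x⟫_ℂ = ∫ x, ⟪φ x, Qe 𝔤 C σ 0 ψ x⟫_ℂ :=
  dirac_symm C _ (contDiff_wd 𝔤 σ 0 contDiff_const).continuous (hφ.1.of_le (by simp))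
    (hψ.1.of_le (by simp)) (Or.inl hφ.2)

theorem form_eq {φ ψ : X E → F} (hφ : Core φ) (hψ : Cls 𝔤 C σ.G ∅ ψ) :
    ∫ x, ⟪Qe 𝔤 C σ 0 φ x, Qe 𝔤 C σ 0 ψ x⟫_ℂ = ∫ x, ⟪φ x, H0 𝔤 C σ ψ x⟫_ℂ := by
  rw [Qe_symm C σ hφ (core_Qe C σ hψ.1)]
  refine integral_congr_ae (Eventually.of_forall fun x => ?_)
  simp only [Qe_zero]
  rw [Qu_sq 𝔤 C σ σ.unit σ.h8 (hψ.1.1.contDiffAt.of_le two_le_infty) (hψ.2.1 x)]

theorem rotU_cls (hV : Vᵀ = -V) (k t : ℝ) {ψ : X E → F} (hψ : Cls 𝔤 C σ.G ∅ ψ) :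
    Cls 𝔤 C σ.G ∅ (rotU C σ.G V k t ψ) := by
  rw [rotU_eq, cls_iff_ds]
  exact ((cls_iff_ds _ _ _ _ _).1 (rot_cls 𝔤 C σ hV t hψ).1).csmul _

theorem rotU_inner (hV : Vᵀ = -V) (k t : ℝ) (φ ψ : X E → F) :
    ∫ x, ⟪rotU C σ.G V k t φ x, rotU C σ.G V k t ψ x⟫_ℂ = ∫ x, ⟪φ x, ψ x⟫_ℂ := by
  simp only [rotU, inner_W C σ.G hV]
  exact integral_comp_iso _ (norm_rot hV (-t)) fun x => ⟪φ x, ψ x⟫_ℂ

theorem rotU_Q (hV : Vᵀ = -V) (k t : ℝ) {φ ψ : X E → F} (hφ : Cls 𝔤 C σ.G ∅ φ)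
    (hψ : Cls 𝔤 C σ.G ∅ ψ) :
    ∫ x, ⟪Qe 𝔤 C σ 0 (rotU C σ.G V k t φ) x, Qe 𝔤 C σ 0 (rotU C σ.G V k t ψ) x⟫_ℂ =
      ∫ x, ⟪Qe 𝔤 C σ 0 φ x, Qe 𝔤 C σ 0 ψ x⟫_ℂ := by
  have e : H0 𝔤 C σ (rotU C σ.G V k t ψ) = rotU C σ.G V k t (H0 𝔤 C σ ψ) := by
    funext x
    have h1 := rot_cls 𝔤 C σ hV t hψ
    have h2 := rotU_cls C σ hV k t hψ
    rw [← Qu_sq 𝔤 C σ σ.unit σ.h8 (h2.1.1.contDiffAt.of_le two_le_infty) (h2.2.1 x),
      rotU_eq, rotU_eq, Pi.smul_apply, ← h1.2 x,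
      ← Qu_sq 𝔤 C σ σ.unit σ.h8 (h1.1.1.1.contDiffAt.of_le two_le_infty) (h1.1.2.1 x)]
    unfold Qu
    rw [← dirac_csmul]
    congr 1
    funext y
    exact dirac_csmul C _ _ _ _ y
  rw [form_eq C σ (rotU_cls C σ hV k t hφ).1 (rotU_cls C σ hV k t hψ), form_eq C σ hφ.1 hψ, e]
  exact rotU_inner C σ hV k t _ _

theorem rotU_fix {𝒱 : Wts} {k : ℝ} (h : (V, k) ∈ 𝒱) (t : ℝ) {ψ : X E → F}
    (hψ : Cls 𝔤 C σ.G 𝒱 ψ) : rotU C σ.G V k t ψ = ψ := by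
  funext x
  have h1 := (wtAt_iff_flow (mat V : X E →ₗ[ℝ] X E) (C.S (mat (sig σ.G V))) k
    (hψ.1.1.differentiable (by simp))).1 (fun y => hψ.2.2 _ h y) t (rexp' ((-t) • mat V) x)
  rw [← rexp'_add_smul, add_neg_cancel, zero_smul, rexp'_zero] at h1
  exact h1.symm

/-- An element of the form domain fixed by the twisted rotations is approximated from the sector. -/
theorem ws {𝒱 : Wts} (h𝒱 : 𝒱.OK) {ρ : ℕ → X E → F} (hρ : ∀ n, Cls 𝔤 C σ.G ∅ (ρ n))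
    {Ψ h : X E → F} (hΨ : MemLp Ψ 2 volume) (hh : MemLp h 2 volume)
    (t1 : Tendsto (fun n => eLpNorm (ρ n - Ψ) 2 volume) atTop (𝓝 0))
    (t2 : Tendsto (fun n => eLpNorm (Qe 𝔤 C σ 0 (ρ n) - h) 2 volume) atTop (𝓝 0))
    (t3 : ∀ p ∈ 𝒱, ∀ t : ℝ,
      Tendsto (fun n => eLpNorm (rotU C σ.G p.1 p.2 t (ρ n) - ρ n) 2 volume) atTop (𝓝 0)) :
    ∃ φ : ℕ → X E → F, (∀ n, Cls 𝔤 C σ.G 𝒱 (φ n)) ∧
      Tendsto (fun n => eLpNorm (φ n - Ψ) 2 volume) atTop (𝓝 0) ∧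
      Tendsto (fun n => eLpNorm (Qe 𝔤 C σ 0 (φ n) - h) 2 volume) atTop (𝓝 0) := by
  have ok0 : Wts.OK ∅ := fun p hp => absurd hp (Set.notMem_empty p)
  have s0 := symOK_flows 𝔤 C σ.G ok0
  have s1 := symOK_flows 𝔤 C σ.G h𝒱
  have hw := contDiff_wd 𝔤 σ 0 (contDiff_const (c := (0 : E)))
  have hC : Compat C (cmap σ.G σ.s) (wd 𝔤 σ 0 fun _ => 0) (flows 𝔤 C σ.G ∅) :=
    compat_Qd 𝔤 C σ (fun p hp => absurd hp (Set.notMem_empty p)) 0 fun ξ v => (map_zero _).symm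
  have hρ' := fun n => (cls_iff_ds _ _ _ _ _).1 (hρ n)
  have hΨ₀ : HS (flows 𝔤 C σ.G ∅) Ψ := HS.of_tendsto s0 (fun n => (hρ' n).hs) hΨ t1
  have hh₀ : HS (flows 𝔤 C σ.G ∅) h :=
    HS.of_tendsto s0 (fun n => (DS.dirac hw s0 hC (hρ' n)).hs) hh t2
  have hΨ₁ : HS (flows 𝔤 C σ.G 𝒱) Ψ := by
    refine ⟨hΨ, fun p hp => ?_⟩
    rcases hp with hp | ⟨q, hq, t, rfl⟩
    · exact hΨ₀.2 p (Or.inl hp)
    have hV := h𝒱 q hq
    set R := rexp' (t • mat q.1 : X E →ₗ[ℝ] X E) with hR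
    set W := NormedSpace.exp ((t : ℂ) • (C.S (mat (sig σ.G q.1)) + ((q.2 : ℂ) * Complex.I) • 1))
      with hW
    have mp : MeasurePreserving R := measurePreserving_iso R (norm_rot hV t)
    have hWn : ∀ a, ‖W a‖ = ‖a‖ := C.norm_exp_S (isSkew_mat (sig_skew σ.G hV)) t q.2
    have m1 : ∀ n, AEStronglyMeasurable (ρ n - Ψ) volume := fun n =>
      ((Core.memLp (hρ n).1).sub hΨ).1
    have m2 : ∀ n, AEStronglyMeasurable (rotU C σ.G q.1 q.2 t (ρ n) - ρ n) volume := fun n =>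
      ((Core.memLp (rotU_cls C σ hV _ _ (hρ n)).1).sub (Core.memLp (hρ n).1)).1
    have key : ∀ n, eLpNorm ((fun x => Ψ (R x)) - fun x => W (Ψ x)) 2 volume ≤
        eLpNorm (ρ n - Ψ) 2 volume + eLpNorm (rotU C σ.G q.1 q.2 t (ρ n) - ρ n) 2 volume +
          eLpNorm (ρ n - Ψ) 2 volume := by
      intro n
      have e : ((fun x => Ψ (R x)) - fun x => W (Ψ x)) =
          -((ρ n - Ψ) ∘ R) - (rotU C σ.G q.1 q.2 t (ρ n) - ρ n) ∘ R +
            fun x => W ((ρ n - Ψ) x) := by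
        funext x
        have e1 : rotU C σ.G q.1 q.2 t (ρ n) (R x) = W (ρ n x) := by
          rw [rotU, hR, ← rexp'_add_smul, neg_add_cancel, zero_smul, rexp'_zero]
        simp only [Pi.sub_apply, Pi.add_apply, Pi.neg_apply, Function.comp_apply, e1, map_sub]
        abel
      have a1 := (m1 n).comp_measurePreserving mp
      have a2 := (m2 n).comp_measurePreserving mp
      have a3 : AEStronglyMeasurable (fun x => W ((ρ n - Ψ) x)) volume :=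
        W.continuous.comp_aestronglyMeasurable (m1 n)
      rw [e]
      refine (eLpNorm_add_le (a1.neg.sub a2) a3 (by norm_num)).trans (add_le_add
        ((eLpNorm_sub_le a1.neg a2 (by norm_num)).trans (le_of_eq ?_)) (le_of_eq ?_))
      · rw [eLpNorm_neg, eLpNorm_comp_measurePreserving (m1 n) mp,
          eLpNorm_comp_measurePreserving (m2 n) mp]
      · exact eLpNorm_congr_norm_ae (Eventually.of_forall fun x => hWn _)
    have lim := (t1.add (t3 q hq t)).add t1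
    simp only [add_zero] at lim
    have z := le_zero_iff.1 (ge_of_tendsto' lim key)
    have z' := (eLpNorm_eq_zero_iff ((hΨ.1.comp_measurePreserving mp).sub
      (W.continuous.comp_aestronglyMeasurable hΨ.1)) (by norm_num)).1 z
    filter_upwards [z'] with x hx
    exact sub_eq_zero.1 hx
  obtain ⟨φ, hφ, u1, u2⟩ := weak_strong C (cmap σ.G σ.s) hw s0 s1 hC hΨ₀ hΨ₁ hh₀ fun φ hφ => by
    have l1 := tendsto_integral_inner (fun n => Core.memLp (hρ n).1) hΨ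
      (Core.memLp (core_Qe (𝔤 := 𝔤) C σ hφ.1)) t1
    have l2 := tendsto_integral_inner (fun n => Core.memLp (core_Qe (𝔤 := 𝔤) C σ (hρ n).1)) hh
      (Core.memLp hφ.1) t2
    exact tendsto_nhds_unique l1 (l2.congr fun n => Qe_symm C σ (hρ n).1 hφ.1)
  exact ⟨φ, fun n => (cls_iff_ds _ _ _ _ _).2 ⟨(hφ n).1, fun p hp => (hφ n).2 p (Or.inr hp)⟩, u1, u2⟩

end Crest.Agent.R330.S

end
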