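import Crest.Agent.R330.IA2
import Crest.Agent.R330.IFA
import Crest.Agent.R330.S.Sym

/-! # Row 330, S/Est: a priori bounds in a confined sector (owner helper60) -/

set_option autoImplicit false
set_option linter.unusedSectionVars false

noncomputable section

open MeasureTheory Filter Topology
open scoped InnerProductSpace ContDiff Matrix
open Crest.MathPhysics.MatrixQM (GammaNine)

namespace Crest.Agent.R330.S

variable {E F : Type} [NormedAddCommGroup E] [InnerProductSpace ℝ E] [FiniteDimensional ℝ E]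
  [MeasurableSpace E] [BorelSpace E]
  [NormedAddCommGroup F] [InnerProductSpace ℂ F] [FiniteDimensional ℂ F]
  {𝔤 : Lie E} (C : Cl (Th E) F) (σ : Spn)

theorem yuk_zero (x : X E) : yuk 𝔤 σ 0 (fun _ => 0) x =
    ∑ i, mat (σ.G.γ i) ∘ₗ lift 16 (𝔤.br (x i)) := by
  have : lift 16 (fderiv ℝ (fun _ : E => (0 : E)) (x 8)).toLinearMap = 0 := by
    ext v a
    simp
  rw [yuk, this]
  simp

theorem continuous_iS_yuk : Continuous fun x : X E => C.iS (yuk 𝔤 σ 0 (fun _ => 0) x) := by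
  let Λ : X E →ₗ[ℝ] (F →L[ℂ] F) :=
    { toFun := fun x => C.iS (yuk 𝔤 σ 0 (fun _ => 0) x)
      map_add' := fun x y => by
        have : yuk 𝔤 σ 0 (fun _ => 0) (x + y) =
            yuk 𝔤 σ 0 (fun _ => 0) x + yuk 𝔤 σ 0 (fun _ => 0) y := by
          simp only [yuk_zero, ← Finset.sum_add_distrib, ← LinearMap.comp_add]
          refine Finset.sum_congr rfl fun i _ => ?_
          congr 1
          ext v a
          simp
        rw [this, Cl.iS, Cl.iS, Cl.iS, C.S_add, smul_add]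
      map_smul' := fun r x => by
        have : yuk 𝔤 σ 0 (fun _ => 0) (r • x) = r • yuk 𝔤 σ 0 (fun _ => 0) x := by
          simp only [yuk_zero, Finset.smul_sum, ← LinearMap.comp_smul]
          refine Finset.sum_congr rfl fun i _ => ?_
          congr 1
          ext v a
          simp
        rw [this, Cl.iS, Cl.iS, C.S_smul, smul_comm, RingHom.id_apply, Complex.coe_smul] }
  exact Λ.continuous_of_finiteDimensional

theorem grad_le : ∃ b : ℝ, 0 < b ∧ ∀ φ, Cls 𝔤 C σ.G ∅ φ →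
    ∫ x, gsq φ x ≤ 2 * (∫ x, ‖Qe 𝔤 C σ 0 φ x‖ ^ 2) + b * ∫ x, ‖x‖ * ‖φ x‖ ^ 2 := by
  obtain ⟨b, hb, hb'⟩ := exists_norm_yuk 𝔤 C σ
  refine ⟨2 * b, by positivity, fun φ hφ => ?_⟩
  have e := energy_Qe 𝔤 C σ 0 0 hφ (Or.inl rfl)
  rw [zero_mul, zero_mul, add_zero] at e
  have i1 := integrable_gsq hφ.1
  have i2 := integrable_mul_sq hφ.1 continuous_norm
  have i3 : Integrable (edens 𝔤 C σ 0 (fun _ => 0) (1 / 2) φ) := by
    refine ((i1.const_mul _).add (integrable_mul_sq hφ.1 ?_)).add ?_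
    · exact continuous_const.mul ((contDiff_wd 𝔤 σ 0 contDiff_const).continuous.norm.pow 2)
    · refine Continuous.integrable_of_hasCompactSupport (Complex.continuous_re.comp
        (hφ.1.1.continuous.inner ((continuous_iS_yuk C σ).clm_apply hφ.1.1.continuous))) ?_
      refine hφ.1.2.mono fun x hx h0 => hx ?_
      simp [h0]
  have h1 : ∫ x, (1 / 2 * gsq φ x - b * (‖x‖ * ‖φ x‖ ^ 2)) ≤
      ∫ x, edens 𝔤 C σ 0 (fun _ => 0) (1 / 2) φ x := by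
    refine integral_mono ((i1.const_mul _).sub (i2.const_mul _)) i3 fun x => ?_
    have h2 := hb' 0 (fun _ => 0) x
    simp only [abs_zero, add_zero, fderiv_fun_const, Pi.zero_apply, norm_zero] at h2
    have h3 : |(⟪φ x, C.iS (yuk 𝔤 σ 0 (fun _ => 0) x) (φ x)⟫_ℂ).re| ≤ ‖φ x‖ * (b * ‖x‖ * ‖φ x‖) :=
      (Complex.abs_re_le_norm _).trans ((norm_inner_le_norm _ _).trans
        (mul_le_mul_of_nonneg_left ((ContinuousLinearMap.le_opNorm _ _).trans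
          (mul_le_mul_of_nonneg_right h2 (norm_nonneg _))) (norm_nonneg _)))
    have h4 := (abs_le.1 h3).1
    have h5 : 0 ≤ 1 / 2 * ‖wd 𝔤 σ 0 (fun _ => 0) x‖ ^ 2 * ‖φ x‖ ^ 2 := by positivity
    simp only [edens]
    nlinarith
  rw [integral_sub (i1.const_mul _) (i2.const_mul _), integral_const_mul, integral_const_mul] at h1
  linarith

theorem tail_le {𝒱 : Wts} (h𝒱 : 𝒱.OK) {c R : ℝ} (hc : 0 < c)
    (hconf : ∀ ψ, Cls 𝔤 C σ.G 𝒱 ψ → (∀ x, ‖x‖ ≤ R → ψ x = 0) →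
      c * ∫ x, ‖x‖ * ‖ψ x‖ ^ 2 ≤ ∫ x, ‖Qe 𝔤 C σ 0 ψ x‖ ^ 2) :
    ∃ K : ℝ, 0 < K ∧ ∀ φ, Cls 𝔤 C σ.G 𝒱 φ → ∫ x, ‖x‖ * ‖φ x‖ ^ 2 ≤
        K * ((∫ x, ‖φ x‖ ^ 2) + ∫ x, ‖Qe 𝔤 C σ 0 φ x‖ ^ 2) := by
  obtain ⟨b, hb, hb'⟩ := exists_radial_cutoff (Y := X E)
  set r := max R 1 with hr
  have hr0 : 0 < r := lt_of_lt_of_le one_pos (le_max_right _ _)
  obtain ⟨χ, c1, -, c3, c4, c5, c6, -, c8⟩ := hb' r hr0
  refine ⟨2 * r + (2 + 2 * (b / r) ^ 2) / c, by positivity, fun φ hφ => ?_⟩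
  have hη : ContDiff ℝ ∞ fun x => 1 - χ x := contDiff_const.sub c1
  have hψ : Cls 𝔤 C σ.G 𝒱 fun x => ((1 - χ x : ℝ) : ℂ) • φ x :=
    Cls.smul h𝒱 hφ isOpen_univ (Set.subset_univ _) hη.contDiffOn
      (fun ξ x => by rw [c8 _ x (norm_rexp' (isSkew_lift (𝔤.isSkew_br ξ)) x)])
      (fun O hO x => by simp only [c8 _ x (norm_mat_orth O hO x)])
  have h1 := hconf _ hψ fun x hx => by simp [c4 x (hx.trans (le_max_left _ _))]
  have iφ := integrable_sq hφ.1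
  have iQ := integrable_sq (core_Qe (𝔤 := 𝔤) C σ hφ.1)
  have h2 : ∫ x, ‖Qe 𝔤 C σ 0 (fun x => ((1 - χ x : ℝ) : ℂ) • φ x) x‖ ^ 2 ≤
      ∫ x, (2 * ‖Qe 𝔤 C σ 0 φ x‖ ^ 2 + 2 * (b / r) ^ 2 * ‖φ x‖ ^ 2) := by
    refine integral_mono (integrable_sq (core_Qe (𝔤 := 𝔤) C σ hψ.1))
      ((iQ.const_mul _).add (iφ.const_mul _)) fun x => ?_
    have e := dirac_smul C (cmap σ.G σ.s) (wd 𝔤 σ 0 fun _ => 0) (χ := fun x => 1 - χ x) (ψ := φ)
      (x := x) (hη.differentiable (by simp) x) (hφ.1.1.differentiable (by simp) x)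
    have g1 : ‖gradient (fun x => 1 - χ x) x‖ ≤ b / r := by
      have := c6 x
      rw [gradient, LinearIsometryEquiv.norm_map] at this ⊢
      rwa [fderiv_const_sub, norm_neg]
    have g2 : ‖Complex.I • C.θ (cmap σ.G σ.s (gradient (fun x => 1 - χ x) x)) (φ x)‖ ≤
        b / r * ‖φ x‖ := by
      rw [norm_smul, Complex.norm_I, one_mul]
      refine (C.norm_θ_le _ _).trans ?_
      rw [norm_cmap σ.G σ.unit]
      exact mul_le_mul_of_nonneg_right g1 (norm_nonneg _)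
    have g3 : ‖((1 - χ x : ℝ) : ℂ) • Qe 𝔤 C σ 0 φ x‖ ≤ ‖Qe 𝔤 C σ 0 φ x‖ := by
      rw [norm_smul, Complex.norm_real, Real.norm_eq_abs, abs_of_nonneg (by linarith [(c3 x).2])]
      exact mul_le_of_le_one_left (norm_nonneg _) (by linarith [(c3 x).1])
    have g4 : ‖Qe 𝔤 C σ 0 (fun x => ((1 - χ x : ℝ) : ℂ) • φ x) x‖ ≤
        ‖Qe 𝔤 C σ 0 φ x‖ + b / r * ‖φ x‖ := by
      refine le_trans (le_of_eq (congrArg norm e)) ((norm_sub_le _ _).trans (add_le_add g3 g2))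
    have g5 := pow_le_pow_left₀ (norm_nonneg _) g4 2
    show _ ≤ 2 * ‖Qe 𝔤 C σ 0 φ x‖ ^ 2 + 2 * (b / r) ^ 2 * ‖φ x‖ ^ 2
    nlinarith [sq_nonneg (‖Qe 𝔤 C σ 0 φ x‖ - b / r * ‖φ x‖)]
  rw [integral_add (iQ.const_mul _) (iφ.const_mul _), integral_const_mul, integral_const_mul] at h2
  have h3 : ∫ x, ‖x‖ * ‖φ x‖ ^ 2 ≤
      ∫ x, (‖x‖ * ‖((1 - χ x : ℝ) : ℂ) • φ x‖ ^ 2 + 2 * r * ‖φ x‖ ^ 2) := by
    refine integral_mono (integrable_mul_sq hφ.1 continuous_norm)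
      ((integrable_mul_sq hψ.1 continuous_norm).add (iφ.const_mul _)) fun x => ?_
    show ‖x‖ * ‖φ x‖ ^ 2 ≤ ‖x‖ * ‖((1 - χ x : ℝ) : ℂ) • φ x‖ ^ 2 + 2 * r * ‖φ x‖ ^ 2
    rcases le_total (2 * r) ‖x‖ with hx | hx
    · simp only [c5 x hx, sub_zero, Complex.ofReal_one, one_smul]
      have : 0 ≤ 2 * r * ‖φ x‖ ^ 2 := by positivity
      linarith
    · have := mul_le_mul_of_nonneg_right hx (sq_nonneg ‖φ x‖)
      have : 0 ≤ ‖x‖ * ‖((1 - χ x : ℝ) : ℂ) • φ x‖ ^ 2 := by positivity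
      linarith
  rw [integral_add (integrable_mul_sq hψ.1 continuous_norm) (iφ.const_mul _),
    integral_const_mul] at h3
  have p1 : 0 ≤ ∫ x, ‖φ x‖ ^ 2 := integral_nonneg fun x => by positivity
  have p2 : 0 ≤ ∫ x, ‖Qe 𝔤 C σ 0 φ x‖ ^ 2 := integral_nonneg fun x => by positivity
  have h4 : ∫ x, ‖x‖ * ‖((1 - χ x : ℝ) : ℂ) • φ x‖ ^ 2 ≤ (2 + 2 * (b / r) ^ 2) / c *
      ((∫ x, ‖φ x‖ ^ 2) + ∫ x, ‖Qe 𝔤 C σ 0 φ x‖ ^ 2) := by
    rw [div_mul_eq_mul_div, le_div_iff₀ hc]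
    nlinarith [sq_nonneg (b / r)]
  nlinarith

/-- Apply the confinement bound to `(1 - χ_R) φ`; then `energy_Qe`, `exists_norm_yuk`. -/
theorem apriori {𝒱 : Wts} (h𝒱 : 𝒱.OK) {c R : ℝ} (hc : 0 < c)
    (hconf : ∀ ψ, Cls 𝔤 C σ.G 𝒱 ψ → (∀ x, ‖x‖ ≤ R → ψ x = 0) →
      c * ∫ x, ‖x‖ * ‖ψ x‖ ^ 2 ≤ ∫ x, ‖Qe 𝔤 C σ 0 ψ x‖ ^ 2) :
    ∃ K : ℝ, 0 < K ∧ ∀ φ, Cls 𝔤 C σ.G 𝒱 φ →
      (∫ x, gsq φ x) + ∫ x, ‖x‖ * ‖φ x‖ ^ 2 ≤
        K * ((∫ x, ‖φ x‖ ^ 2) + ∫ x, ‖Qe 𝔤 C σ 0 φ x‖ ^ 2) := by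
  obtain ⟨b, hb, hb'⟩ := grad_le (𝔤 := 𝔤) C σ
  obtain ⟨K, hK, hK'⟩ := tail_le C σ h𝒱 hc hconf
  refine ⟨2 + (b + 1) * K, by positivity, fun φ hφ => ?_⟩
  have h1 := hb' φ ⟨hφ.1, hφ.2.1, fun p hp => absurd hp (Set.notMem_empty p)⟩
  have h2 := mul_le_mul_of_nonneg_left (hK' φ hφ) (show 0 ≤ b + 1 by positivity)
  have p1 : 0 ≤ ∫ x, ‖φ x‖ ^ 2 := integral_nonneg fun x => by positivity
  nlinarith

end Crest.Agent.R330.S

end
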