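import Crest.Agent.R330.S.Sect
import Crest.Agent.R330.S.Sym

/-! # Row 330, S/Inf: the sector is infinite dimensional (owner helper60) -/

set_option autoImplicit false
set_option linter.unusedSectionVars false

noncomputable section

open MeasureTheory Filter Topology
open scoped InnerProductSpace ContDiff Matrix
open Crest.MathPhysics.MatrixQM (GammaNine)

namespace Crest.Agent.R330.S

variable {E F : Type} [NormedAddCommGroup E] [InnerProductSpace ℝ E] [FiniteDimensional ℝ E]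
  [MeasurableSpace E] [BorelSpace E]
  [NormedAddCommGroup F] [InnerProductSpace ℂ F] [FiniteDimensional ℂ F]
  {𝔤 : Lie E} (C : Cl (Th E) F) (σ : Spn)

theorem gam_anti (G : GammaNine) {i j : Fin 9} (h : i ≠ j) : G.γ i * G.γ j = -(G.γ j * G.γ i) := by
  have := G.clifford i j
  rw [if_neg h] at this
  exact eq_neg_of_add_eq_zero_left this

theorem gam_sq (G : GammaNine) (i : Fin 9) : G.γ i * G.γ i = 1 := by
  have := G.clifford i i
  rw [if_pos rfl] at this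
  have h2 : (2 : ℝ) • (G.γ i * G.γ i) = (2 : ℝ) • (1 : Matrix (Fin 16) (Fin 16) ℝ) := by
    rw [two_smul, two_smul, this, one_add_one_eq_two]
  exact smul_right_injective _ two_ne_zero h2

theorem sig_add (G : GammaNine) (V W : Matrix (Fin 9) (Fin 9) ℝ) :
    sig G (V + W) = sig G V + sig G W := by
  simp [sig, add_smul, Finset.sum_add_distrib]

theorem sig_sub (G : GammaNine) (V W : Matrix (Fin 9) (Fin 9) ℝ) :
    sig G (V - W) = sig G V - sig G W := by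
  rw [eq_sub_iff_add_eq, ← sig_add, sub_add_cancel]

theorem mat_sub {m n : ℕ} (M N : Matrix (Fin m) (Fin n) ℝ) :
    (mat (M - N) : T n E →ₗ[ℝ] T m E) = mat M - mat N := by
  rw [eq_sub_iff_add_eq, ← mat_add, sub_add_cancel]

theorem mat_pl (i j : Fin 9) (x : X E) (a : Fin 9) :
    mat (pl i j) x a = (if a = j then x i else 0) - (if a = i then x j else 0) := by
  simp only [mat_apply, pl, Matrix.sub_apply, Matrix.single_apply, sub_smul, Finset.sum_sub_distrib]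
  congr 1
  · by_cases h : a = j
    · subst h; simp
    · simp [h, Ne.symm h]
  · by_cases h : a = i
    · subst h; simp
    · simp [h, Ne.symm h]

theorem exists_omega [Nontrivial F] (G : GammaNine) : ∃ om : F, om ≠ 0 ∧
    (∀ ξ, C.S (lift 16 (𝔤.br ξ)) om = 0) ∧
    ∀ i j : Fin 9, i ≠ j → i ≠ 4 → i ≠ 5 → j ≠ 4 → j ≠ 5 → C.S (mat (sig G (pl i j))) om = 0 := by
  have h45 : (4 : Fin 9) ≠ 5 := by decide
  have hJ : IsCx (mat (G.γ 4 * G.γ 5) : Th E →ₗ[ℝ] Th E) := by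
    refine ⟨isSkew_mat ?_, fun v => ?_⟩
    · rw [Matrix.transpose_mul, G.symm, G.symm, gam_anti G h45.symm]
    · have : G.γ 4 * G.γ 5 * (G.γ 4 * G.γ 5) = (-1 : ℝ) • 1 := by
        rw [mul_assoc, ← mul_assoc (G.γ 5), gam_anti G h45.symm, neg_mul, mul_assoc, gam_sq, mul_one,
          mul_neg, gam_sq, neg_one_smul]
      rw [← LinearMap.comp_apply, ← mat_mul, this, mat_smul, mat_one]
      simp
  obtain ⟨a, ha⟩ : ∃ a, C.vac (mat (G.γ 4 * G.γ 5)) a ≠ 0 := by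
    by_contra h
    push Not at h
    exact C.vac_ne_zero hJ (ContinuousLinearMap.ext h)
  have key : ∀ A : Th E →ₗ[ℝ] Th E, IsSkew A → A ∘ₗ mat (G.γ 4 * G.γ 5) = mat (G.γ 4 * G.γ 5) ∘ₗ A →
      LinearMap.trace ℝ _ (mat (G.γ 4 * G.γ 5) ∘ₗ A) = 0 →
      C.S A (C.vac (mat (G.γ 4 * G.γ 5)) a) = 0 := by
    intro A h1 h2 h3
    have e1 := C.vac_S_vac hJ h1
    rw [← C.S_comm_vac hJ h1 h2, mul_assoc, C.vac_idem hJ, h3] at e1
    rw [← ContinuousLinearMap.mul_apply, e1]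
    simp
  refine ⟨_, ha, fun ξ => key _ (isSkew_lift (𝔤.isSkew_br ξ)) (mat_lift _ _).symm ?_,
    fun i j hij hi4 hi5 hj4 hj5 => key _ (isSkew_mat (sig_skew G (pl_skew i j))) ?_ ?_⟩
  · rw [trace_mat_lift, gamma_trace_two, if_neg h45, zero_mul]
  · rw [← mat_mul, ← mat_mul, sig_pl G hij, Matrix.smul_mul, Matrix.mul_smul]
    congr 2
    have c : ∀ k : Fin 9, k ≠ 4 → k ≠ 5 → G.γ k * (G.γ 4 * G.γ 5) = G.γ 4 * G.γ 5 * G.γ k := by
      intro k h4 h5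
      rw [← mul_assoc, gam_anti G h4, neg_mul, mul_assoc, gam_anti G h5, mul_neg, neg_neg, mul_assoc]
    rw [mul_assoc, c j hj4 hj5, ← mul_assoc, c i hi4 hi5, mul_assoc]
  · have e : (mat (G.γ 4 * G.γ 5 * sig G (pl i j)) : Th E →ₗ[ℝ] Th E) =
        mat (G.γ 4 * G.γ 5 * sig G (pl i j)) ∘ₗ lift 16 LinearMap.id := by
      ext v a
      simp
    have t : (G.γ 4 * (G.γ 5 * (G.γ i * G.γ j))).trace = 0 := by
      have e1 : G.γ 5 * (G.γ i * G.γ j) * G.γ 4 = -(G.γ 4 * (G.γ 5 * (G.γ i * G.γ j))) := by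
        rw [mul_assoc, mul_assoc, gam_anti G hj4, mul_neg, ← mul_assoc (G.γ i), gam_anti G hi4,
          neg_mul, neg_neg, mul_assoc, ← mul_assoc (G.γ 5), gam_anti G h45.symm, neg_mul, mul_assoc]
      have e2 := Matrix.trace_mul_comm (G.γ 4) (G.γ 5 * (G.γ i * G.γ j))
      rw [e1, Matrix.trace_neg] at e2
      linarith
    rw [← mat_mul, e, trace_mat_lift, sig_pl G hij, Matrix.mul_smul, Matrix.trace_smul, mul_assoc, t]
    simp

variable (𝔤) in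
/-- real part of `[Z₁, Z₂]` -/
def pA (x : X E) : E := 𝔤.br (x 0) (x 2) - 𝔤.br (x 1) (x 3)
variable (𝔤) in
/-- imaginary part of `[Z₁, Z₂]` -/
def pB (x : X E) : E := 𝔤.br (x 0) (x 3) + 𝔤.br (x 1) (x 2)
variable (𝔤) in
/-- `⟨[Z₁,Z₂],[Z₁,Z₂]⟩` -/
def pp (x : X E) : ℂ := ((⟪pA 𝔤 x, pA 𝔤 x⟫_ℝ - ⟪pB 𝔤 x, pB 𝔤 x⟫_ℝ : ℝ) : ℂ) +
  ((2 * ⟪pA 𝔤 x, pB 𝔤 x⟫_ℝ : ℝ) : ℂ) * Complex.I

variable (𝔤) in
/-- the bracket as a continuous bilinear map -/
def brL : E →L[ℝ] E →L[ℝ] E :=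
  LinearMap.toContinuousLinearMap
    ((LinearMap.toContinuousLinearMap (𝕜 := ℝ) (E := E) (F' := E)).toLinearMap ∘ₗ 𝔤.br)

theorem contDiff_br (i j : Fin 9) : ContDiff ℝ ∞ fun x : X E => 𝔤.br (x i) (x j) :=
  ((brL 𝔤).contDiff.comp (PiLp.proj (𝕜 := ℝ) 2 (fun _ : Fin 9 => E) i).contDiff).clm_apply
    (PiLp.proj (𝕜 := ℝ) 2 (fun _ : Fin 9 => E) j).contDiff

theorem contDiff_pp : ContDiff ℝ ∞ (pp 𝔤) := by
  have hA : ContDiff ℝ ∞ (pA 𝔤) := (contDiff_br 0 2).sub (contDiff_br 1 3)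
  have hB : ContDiff ℝ ∞ (pB 𝔤) := (contDiff_br 0 3).add (contDiff_br 1 2)
  exact (Complex.ofRealCLM.contDiff.comp ((hA.inner ℝ hA).sub (hB.inner ℝ hB))).add
    ((Complex.ofRealCLM.contDiff.comp (contDiff_const.mul (hA.inner ℝ hB))).mul contDiff_const)

theorem hasDerivAt_br (x v : X E) (i j : Fin 9) :
    HasDerivAt (fun t : ℝ => 𝔤.br ((x + t • v) i) ((x + t • v) j))
      (𝔤.br (v i) (x j) + 𝔤.br (x i) (v j)) 0 := by
  have h : ∀ i, HasDerivAt (fun t : ℝ => (x + t • v) i) (v i) 0 := fun i => by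
    simpa using ((hasDerivAt_id (0 : ℝ)).smul_const (v i)).const_add (x i)
  have := ((brL 𝔤).hasFDerivAt.comp_hasDerivAt 0 (h i)).clm_apply (h j)
  simpa [brL] using this

theorem fderiv_pp (x v : X E) {A' B' : E}
    (hA : 𝔤.br (v 0) (x 2) + 𝔤.br (x 0) (v 2) - (𝔤.br (v 1) (x 3) + 𝔤.br (x 1) (v 3)) = A')
    (hB : 𝔤.br (v 0) (x 3) + 𝔤.br (x 0) (v 3) + (𝔤.br (v 1) (x 2) + 𝔤.br (x 1) (v 2)) = B') :
    fderiv ℝ (pp 𝔤) x v = ((⟪pA 𝔤 x, A'⟫_ℝ + ⟪A', pA 𝔤 x⟫_ℝ -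
      (⟪pB 𝔤 x, B'⟫_ℝ + ⟪B', pB 𝔤 x⟫_ℝ) : ℝ) : ℂ) +
      ((2 * (⟪pA 𝔤 x, B'⟫_ℝ + ⟪A', pB 𝔤 x⟫_ℝ) : ℝ) : ℂ) * Complex.I := by
  have dA : HasDerivAt (fun t : ℝ => pA 𝔤 (x + t • v)) A' 0 :=
    hA ▸ (hasDerivAt_br x v 0 2).sub (hasDerivAt_br x v 1 3)
  have dB : HasDerivAt (fun t : ℝ => pB 𝔤 (x + t • v)) B' 0 :=
    hB ▸ (hasDerivAt_br x v 0 3).add (hasDerivAt_br x v 1 2)
  have d1 := (((dA.inner ℝ dA).sub (dB.inner ℝ dB)).ofReal_comp).add
    ((((dA.inner ℝ dB).const_mul 2).ofReal_comp).mul_const Complex.I)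
  simp only [zero_smul, add_zero] at d1
  have d2 : HasDerivAt (fun t : ℝ => pp 𝔤 (x + t • v)) (fderiv ℝ (pp 𝔤) x v) 0 :=
    ((contDiff_pp.differentiable (by simp)) x).hasFDerivAt.hasLineDerivAt v
  exact d2.unique d1

theorem br_self (a : E) : 𝔤.br a a = 0 := by
  have h : (2 : ℝ) • 𝔤.br a a = 0 := by
    rw [two_smul]
    exact add_eq_zero_iff_eq_neg.2 (𝔤.anti a a)
  exact (smul_eq_zero.1 h).resolve_left two_ne_zero

theorem pp_gauge (ξ : E) (x : X E) : fderiv ℝ (pp 𝔤) x (lift 9 (𝔤.br ξ) x) = 0 := by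
  rw [fderiv_pp x _ (A' := 𝔤.br ξ (pA 𝔤 x)) (B' := 𝔤.br ξ (pB 𝔤 x))]
  · simp only [𝔤.isSkew_br ξ _ _]
    simp
  · simp only [lift_apply, pA, map_sub, 𝔤.jac ξ]
  · simp only [lift_apply, pB, map_add, 𝔤.jac ξ]

theorem pp_R1 (x : X E) : fderiv ℝ (pp 𝔤) x (mat R1 x) = 0 := by
  rw [fderiv_pp x _ (A' := 0) (B' := 0)]
  · simp
  · simp [R1, mat_add, mat_pl, -mat_apply, br_self]
  · simp [R1, mat_add, mat_pl, -mat_apply, 𝔤.anti (x 3) (x 2), 𝔤.anti (x 1) (x 0)]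
    abel

theorem pp_R2 (x : X E) : fderiv ℝ (pp 𝔤) x (mat R2 x) = 0 := by
  rw [fderiv_pp x _ (A' := 0) (B' := 0)]
  · simp
  · simp [R2, mat_sub, mat_pl, -mat_apply, 𝔤.anti (x 3) (x 2), 𝔤.anti (x 1) (x 0)]
  · simp [R2, mat_sub, mat_pl, -mat_apply, br_self]

theorem pp_R3 (x : X E) : fderiv ℝ (pp 𝔤) x (mat R3 x) = 0 := by
  rw [fderiv_pp x _ (A' := 0) (B' := 0)]
  · simp
  · simp [R3, mat_sub, mat_pl, -mat_apply]
    abel
  · simp [R3, mat_sub, mat_pl, -mat_apply]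

theorem pp_L3 (x : X E) : fderiv ℝ (pp 𝔤) x (mat L3 x) = 4 * Complex.I * pp 𝔤 x := by
  rw [fderiv_pp x _ (A' := -(2 : ℝ) • pB 𝔤 x) (B' := (2 : ℝ) • pA 𝔤 x)]
  · simp only [pp, inner_smul_left, inner_smul_right, real_inner_comm (pA 𝔤 x) (pB 𝔤 x)]
    apply Complex.ext <;> simp <;> ring
  · simp [L3, mat_add, mat_pl, -mat_apply, pB, two_smul]
    abel
  · simp [L3, mat_add, mat_pl, -mat_apply, pA, two_smul]
    abel

theorem wtAt_base {A : X E →ₗ[ℝ] X E} {S : F →L[ℂ] F} {om : F} (hom : S om = 0) {c : ℝ} {x : X E}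
    (h : fderiv ℝ (pp 𝔤) x (A x) = c * Complex.I * pp 𝔤 x) (m : ℕ) :
    WtAt A S (c * m) (fun y => pp 𝔤 y ^ m • om) x := by
  have d := (((contDiff_pp (𝔤 := 𝔤).differentiable (by simp)) x).hasFDerivAt.pow m).smul_const om
  rw [WtAt, d.fderiv, map_smul, hom, smul_zero, zero_add, smul_smul]
  simp only [ContinuousLinearMap.smulRight_apply, ContinuousLinearMap.smul_apply, h]
  congr 1
  cases m with
  | zero => simp
  | succ m =>
    simp only [Nat.add_sub_cancel, nsmul_eq_mul, smul_eq_mul]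
    push_cast
    ring

theorem exists_br_ne (M : MatSys 2 𝔤) : ∃ u v : E, 𝔤.br u v ≠ 0 := by
  obtain ⟨u, hu⟩ := M.surj !![0, 1; 1, 0] (by
    ext i j; fin_cases i <;> fin_cases j <;> simp) (by simp [Matrix.trace_fin_two])
  obtain ⟨v, hv⟩ := M.surj !![1, 0; 0, -1] (by
    ext i j; fin_cases i <;> fin_cases j <;> simp) (by simp [Matrix.trace_fin_two])
  refine ⟨u, v, fun h => ?_⟩
  have e := M.br u v
  rw [h, map_zero, hu, hv] at e
  have := congrFun (congrFun e 1) 0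
  simp at this

/-- `u n = χ_n(‖x‖) p(x)^m om`, `p = ⟨[Z₁,Z₂],[Z₁,Z₂]⟩`, `om` in the vacuum of `γ⁴γ⁵`. -/
theorem exists_orth [Nontrivial F] (M : MatSys 2 𝔤) (m : ℕ) : ∃ u : ℕ → X E → F,
    (∀ n, Cls 𝔤 C σ.G (sec (4 * m)) (u n)) ∧ (∀ n, ∃ x, u n x ≠ 0) ∧
      ∀ a b, a ≠ b → ∀ x, ⟪u a x, u b x⟫_ℂ = 0 := by
  obtain ⟨om, hom, hom1, hom2⟩ := exists_omega (𝔤 := 𝔤) C σ.G
  obtain ⟨b, -, hb⟩ := exists_radial_cutoff (Y := X E)
  choose χ c1 c2 c3 c4 c5 c6 c7 c8 using hb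
  have r1 : ∀ n : ℕ, (0 : ℝ) < 4 ^ n := fun n => by positivity
  have r2 : ∀ n : ℕ, (0 : ℝ) < 2 * 4 ^ n := fun n => by positivity
  let β : ℕ → X E → ℝ := fun n x => χ _ (r2 n) x - χ _ (r1 n) x
  have β1 : ∀ n, ContDiff ℝ ∞ (β n) := fun n => (c1 _ _).sub (c1 _ _)
  have β2 : ∀ n, HasCompactSupport (β n) := fun n => (c2 _ _).sub (c2 _ _)
  have β3 : ∀ n x y, ‖x‖ = ‖y‖ → β n x = β n y := fun n x y h => by
    simp only [β, c8 _ _ x y h]
  have β4 : ∀ n x, ‖x‖ ≤ 4 ^ n → β n x = 0 := fun n x h => by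
    simp only [β]
    rw [c4 _ _ x h, c4 _ _ x (by linarith [r1 n]), sub_self]
  have β5 : ∀ n x, 4 ^ (n + 1) ≤ ‖x‖ → β n x = 0 := fun n x h => by
    simp only [β]
    rw [pow_succ] at h
    rw [c5 _ _ x (by linarith), c5 _ _ x (by linarith [r1 n]), sub_self]
  have β6 : ∀ n x, ‖x‖ = 2 * 4 ^ n → β n x = 1 := fun n x h => by
    simp only [β]
    rw [c4 _ _ x h.le, c5 _ _ x h.ge, sub_zero]
  have hf : ContDiff ℝ ∞ fun y : X E => pp 𝔤 y ^ m • om := (contDiff_pp.pow m).smul contDiff_const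
  have wt : ∀ (n : ℕ) {A : X E →ₗ[ℝ] X E} {S : F →L[ℂ] F} {c : ℝ} (x : X E), IsSkew A → S om = 0 →
      fderiv ℝ (pp 𝔤) x (A x) = c * Complex.I * pp 𝔤 x →
      WtAt A S (c * m) (fun y => (β n y : ℂ) • pp 𝔤 y ^ m • om) x := by
    intro n A S c x hA hS h
    have hβ := (β1 n).differentiable (by simp) x
    refine (wtAt_base hS h m).smul (hf.differentiable (by simp) x) hβ
      (fderiv_eq_zero_of_flow A hβ fun t => β3 n _ _ (norm_rexp' (fun u v => ?_) x))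
    simp only [LinearMap.smul_apply, inner_smul_left, inner_smul_right, hA u v]
    simp
  have hok := sec_ok (4 * (m : ℝ))
  refine ⟨fun n y => (β n y : ℂ) • pp 𝔤 y ^ m • om, fun n => ⟨⟨?_, ?_⟩, fun x ξ => ?_, ?_⟩,
    fun n => ?_, fun a b hab x => ?_⟩
  · exact (Complex.ofRealCLM.contDiff.comp (β1 n)).smul hf
  · refine (β2 n).mono fun x hx h0 => hx ?_
    simp [h0]
  · simpa using wt n (c := 0) x (isSkew_lift (𝔤.isSkew_br ξ)) (hom1 ξ) (by simp [pp_gauge])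
  · intro p hp x
    have sk : IsSkew (mat p.1 : X E →ₗ[ℝ] X E) := isSkew_mat (hok p hp)
    rcases hp with rfl | rfl | rfl | rfl
    · simpa [RotAt] using wt n (c := 0) (S := C.S (mat (sig σ.G R1))) x sk (by
        rw [R1, sig_add, mat_add, C.S_add, ContinuousLinearMap.add_apply, hom2, hom2, add_zero] <;>
          decide) (by simp [pp_R1])
    · simpa [RotAt] using wt n (c := 0) (S := C.S (mat (sig σ.G R2))) x sk (by
        rw [R2, sig_sub, mat_sub, C.S_sub, ContinuousLinearMap.sub_apply, hom2, hom2, sub_zero] <;>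
          decide) (by simp [pp_R2])
    · simpa [RotAt] using wt n (c := 0) (S := C.S (mat (sig σ.G R3))) x sk (by
        rw [R3, sig_sub, mat_sub, C.S_sub, ContinuousLinearMap.sub_apply, hom2, hom2, sub_zero] <;>
          decide) (by simp [pp_R3])
    · exact wt n (c := 4) (S := C.S (mat (sig σ.G L3))) x sk (by
        rw [L3, sig_add, mat_add, C.S_add, ContinuousLinearMap.add_apply, hom2, hom2, add_zero] <;>
          decide) (by simp [pp_L3])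
  · obtain ⟨u, v, huv⟩ := exists_br_ne M
    let x₁ : X E := WithLp.toLp 2 fun i => if i = 0 then u else if i = 2 then v else 0
    have hx₁ : x₁ ≠ 0 := by
      intro h
      have : u = 0 := by simpa [x₁] using congrArg (fun y : X E => y 0) h
      exact huv (by simp [this])
    have hn : 0 < ‖x₁‖ := norm_pos_iff.2 hx₁
    set s : ℝ := 2 * 4 ^ n / ‖x₁‖ with hs
    have hs0 : 0 < s := by positivity
    refine ⟨s • x₁, ?_⟩
    have e1 : β n (s • x₁) = 1 := β6 n _ (by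
      rw [norm_smul, Real.norm_of_nonneg hs0.le, hs, div_mul_cancel₀ _ hn.ne'])
    have e2 : pA 𝔤 (s • x₁) = s • s • 𝔤.br u v := by simp [pA, x₁]
    have e3 : pB 𝔤 (s • x₁) = 0 := by simp [pB, x₁]
    have e4 : pp 𝔤 (s • x₁) ≠ 0 := by
      simp [pp, e2, e3, hs0.ne', huv]
    simp [e1, e4, hom]
  · have : β a x = 0 ∨ β b x = 0 := by
      rcases lt_or_gt_of_ne hab with h | h
      · rcases le_total ‖x‖ (4 ^ b) with h' | h'
        · exact Or.inr (β4 b x h')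
        · exact Or.inl (β5 a x ((pow_le_pow_right₀ (by norm_num) h).trans h'))
      · rcases le_total ‖x‖ (4 ^ a) with h' | h'
        · exact Or.inl (β4 a x h')
        · exact Or.inr (β5 b x ((pow_le_pow_right₀ (by norm_num) h).trans h'))
    rcases this with h | h <;> simp [h]

end Crest.Agent.R330.S

end
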