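import Crest.Agent.R330.IG
import Crest.Agent.R330.S.L2

/-! # Row 330, S/Rell: Rellich in Ehrling form (owner helper60) -/

set_option autoImplicit false
set_option linter.unusedSectionVars false

noncomputable section

open MeasureTheory Filter Topology
open scoped InnerProductSpace ContDiff Matrix
open Crest.MathPhysics.MatrixQM (GammaNine)

namespace Crest.Agent.R330.S

variable {Y F : Type} [NormedAddCommGroup Y] [InnerProductSpace ℝ Y] [FiniteDimensional ℝ Y]
  [MeasurableSpace Y] [BorelSpace Y]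
  [NormedAddCommGroup F] [InnerProductSpace ℂ F] [FiniteDimensional ℂ F]

theorem exists_sep {δ : ℝ} (hδ : 0 < δ) (T₀ : Finset Y) : ∃ T : Finset Y,
    (∀ a ∈ T, ∀ b ∈ T, a ≠ b → δ ≤ dist a b) ∧ ∀ a ∈ T₀, ∃ b ∈ T, dist a b < δ := by
  classical
  induction T₀ using Finset.induction_on with
  | empty => exact ⟨∅, by simp, by simp⟩
  | insert a T₀ _ ih =>
    obtain ⟨T, h1, h2⟩ := ih
    by_cases h : ∃ b ∈ T, dist a b < δ
    · refine ⟨T, h1, fun x hx => ?_⟩
      rcases Finset.mem_insert.1 hx with rfl | hx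
      · exact h
      · exact h2 x hx
    · push Not at h
      refine ⟨insert a T, fun x hx y hy hxy => ?_, fun x hx => ?_⟩
      · rcases Finset.mem_insert.1 hx with rfl | hx' <;> rcases Finset.mem_insert.1 hy with rfl | hy'
        · exact absurd rfl hxy
        · exact h y hy'
        · rw [dist_comm]; exact h x hx'
        · exact h1 x hx' y hy' hxy
      · rcases Finset.mem_insert.1 hx with rfl | hx
        · exact ⟨x, Finset.mem_insert_self _ _, by simpa using hδ⟩
        · obtain ⟨b, hb, hb'⟩ := h2 x hx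
          exact ⟨b, Finset.mem_insert_of_mem hb, hb'⟩

open Classical in
theorem exists_net (R : ℝ) {δ : ℝ} (hδ : 0 < δ) : ∃ T : Finset Y,
    (∀ x : Y, ‖x‖ ≤ R → ∃ c ∈ T, x ∈ Metric.closedBall c (2 * δ)) ∧
      ∀ x : Y, (T.filter fun c => x ∈ Metric.closedBall c (2 * δ)).card ≤ 5 ^ Module.finrank ℝ Y := by
  obtain ⟨t, htf, ht⟩ := Metric.totallyBounded_iff.1
    (isCompact_closedBall (0 : Y) R).totallyBounded δ hδ
  obtain ⟨T, h1, h2⟩ := exists_sep hδ htf.toFinset
  refine ⟨T, fun x hx => ?_, fun x => ?_⟩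
  · obtain ⟨a, ha, hxa⟩ := Set.mem_iUnion₂.1 (ht (mem_closedBall_zero_iff.2 hx))
    obtain ⟨b, hb, hab⟩ := h2 a (htf.mem_toFinset.2 ha)
    refine ⟨b, hb, ?_⟩
    rw [Metric.mem_ball] at hxa
    rw [Metric.mem_closedBall]
    linarith [dist_triangle x a b]
  · have hinj : Function.Injective fun c : Y => δ⁻¹ • (c - x) := fun a b hab =>
      sub_left_injective (smul_right_injective Y (inv_ne_zero hδ.ne') hab)
    rw [← Finset.card_image_of_injective _ hinj]
    refine Besicovitch.card_le_of_separated _ (fun c hc => ?_) fun c hc d hd hcd => ?_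
    · obtain ⟨a, ha, rfl⟩ := Finset.mem_image.1 hc
      have := (Finset.mem_filter.1 ha).2
      rw [Metric.mem_closedBall, dist_comm, dist_eq_norm] at this
      rw [norm_smul, norm_inv, Real.norm_of_nonneg hδ.le, inv_mul_le_iff₀ hδ]
      linarith
    · obtain ⟨a, ha, rfl⟩ := Finset.mem_image.1 hc
      obtain ⟨b, hb, rfl⟩ := Finset.mem_image.1 hd
      have := h1 a (Finset.mem_filter.1 ha).1 b (Finset.mem_filter.1 hb).1 fun h => hcd (by rw [h])
      rw [← smul_sub, sub_sub_sub_cancel_right, norm_smul, norm_inv, Real.norm_of_nonneg hδ.le,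
        le_inv_mul_iff₀ hδ, mul_one, ← dist_eq_norm]
      exact this

theorem double_eq {K : Set Y} (hK : IsCompact K) {φ : Y → F} (hφ : Continuous φ) :
    ∫ x in K, ∫ y in K, ‖φ x - φ y‖ ^ 2 =
      2 * (volume.real K) * (∫ x in K, ‖φ x‖ ^ 2) - 2 * ‖∫ x in K, φ x‖ ^ 2 := by
  have : IsFiniteMeasure (volume.restrict K) := isFiniteMeasure_restrict.2 hK.measure_ne_top
  have i1 : IntegrableOn φ K := hφ.continuousOn.integrableOn_compact hK
  have i2 : IntegrableOn (fun x => ‖φ x‖ ^ 2) K :=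
    (hφ.norm.pow 2).continuousOn.integrableOn_compact hK
  have i3 : ∀ a : F, IntegrableOn (fun x => (⟪a, φ x⟫_ℂ).re) K := fun a =>
    (Complex.continuous_re.comp (continuous_const.inner hφ)).continuousOn.integrableOn_compact hK
  have i4 : ∀ a : F, ∫ x in K, (⟪a, φ x⟫_ℂ).re = (⟪a, ∫ x in K, φ x⟫_ℂ).re := by
    intro a
    rw [← integral_inner i1]
    exact integral_re (𝕜 := ℂ) (i1.const_inner a)
  have e1 : ∀ a : F, ∫ y in K, ‖a - φ y‖ ^ 2 = volume.real K * ‖a‖ ^ 2 -
      2 * (⟪∫ x in K, φ x, a⟫_ℂ).re + ∫ x in K, ‖φ x‖ ^ 2 := by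
    intro a
    simp only [norm_sub_sq (𝕜 := ℂ), RCLike.re_to_complex]
    rw [integral_add (by exact (integrable_const _).sub ((i3 a).const_mul 2)) i2,
      integral_sub (integrable_const _) ((i3 a).const_mul 2), integral_const_mul, i4,
      setIntegral_const, smul_eq_mul, ← inner_conj_symm, Complex.conj_re]
  simp only [e1]
  rw [integral_add (by exact (i2.const_mul _).sub ((i3 _).const_mul 2)) (integrable_const _),
    integral_sub (i2.const_mul _) ((i3 _).const_mul 2), integral_const_mul, integral_const_mul, i4,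
    setIntegral_const, smul_eq_mul, ← inner_self_eq_norm_sq (𝕜 := ℂ), RCLike.re_to_complex]
  ring

theorem local_est (c : Y) {r : ℝ} (hr : 0 < r) {φ : Y → F} (hφ : Core φ) :
    ∫ x in Metric.closedBall c r, ‖φ x‖ ^ 2 ≤
      2 ^ Module.finrank ℝ Y * (2 * r) ^ 2 * (∫ x in Metric.closedBall c r, gsq φ x) +
        (volume.real (Metric.closedBall (0 : Y) r))⁻¹ * ‖∫ x in Metric.closedBall c r, φ x‖ ^ 2 := by
  have h := poincare_qc (convex_closedBall c r) (isCompact_closedBall c r) (g := fun _ => 1)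
    continuous_const (fun _ => zero_le_one) 1 (fun _ => le_rfl) (fun _ _ _ _ _ _ => by simp)
    (ContinuousLinearEquiv.refl ℝ Y) (2 * r) (fun x hx y hy _ _ => by
      rw [Metric.mem_closedBall] at hx hy
      rw [ContinuousLinearEquiv.refl_apply, ← dist_eq_norm]
      linarith [dist_triangle_right x y c]) (hφ.1.of_le (by simp))
  simp only [one_mul, mul_one, ne_eq, one_ne_zero, not_false_eq_true, Set.ofPred_true,
    Set.inter_univ, ContinuousLinearEquiv.refl_symm, ContinuousLinearEquiv.refl_apply] at h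
  rw [double_eq (isCompact_closedBall c r) hφ.1.continuous] at h
  have hV : volume.real (Metric.closedBall c r) = volume.real (Metric.closedBall (0 : Y) r) := by
    rw [Measure.real, Measure.real, Measure.addHaar_closedBall_center]
  have hV0 : 0 < volume.real (Metric.closedBall (0 : Y) r) :=
    ENNReal.toReal_pos (Metric.measure_closedBall_pos volume _ hr).ne' measure_closedBall_lt_top.ne
  change _ ≤ _ * volume.real (Metric.closedBall c r) * ∫ x in Metric.closedBall c r, gsq φ x at h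
  rw [hV, pow_succ] at h
  set V := volume.real (Metric.closedBall (0 : Y) r)
  rw [← sub_le_iff_le_add, ← mul_le_mul_iff_right₀ (show 0 < 2 * V by positivity), mul_sub]
  have : 2 * V * (V⁻¹ * ‖∫ x in Metric.closedBall c r, φ x‖ ^ 2) =
      2 * ‖∫ x in Metric.closedBall c r, φ x‖ ^ 2 := by field_simp
  rw [this]
  exact h.trans (le_of_eq (by ring))

/-- Cover `closedBall 0 R` by balls of radius `2δ` around a `δ`-separated net (overlap `≤ 5^n`),
`poincare_qc` on each ball. -/
theorem ehrling {ε : ℝ} (hε : 0 < ε) : ∃ (I : Type) (_ : Fintype I) (g : I → Y → F) (K : ℝ),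
    0 ≤ K ∧ (∀ i, MemLp (g i) 2 volume) ∧ ∀ φ : Y → F, Core φ →
      ∫ x, ‖φ x‖ ^ 2 ≤ ε * ((∫ x, gsq φ x) + ∫ x, ‖x‖ * ‖φ x‖ ^ 2) +
        K * ∑ i, ‖∫ x, ⟪g i x, φ x⟫_ℂ‖ ^ 2 := by
  classical
  set n := Module.finrank ℝ Y with hn
  set δ := √(ε / (16 * 2 ^ n * 5 ^ n)) with hδdef
  have hδ : 0 < δ := Real.sqrt_pos.2 (by positivity)
  have hδ2 : 2 ^ n * (2 * (2 * δ)) ^ 2 * 5 ^ n = ε := by
    have : δ ^ 2 = ε / (16 * 2 ^ n * 5 ^ n) := Real.sq_sqrt (by positivity)
    rw [show (2 * (2 * δ)) ^ 2 = 16 * δ ^ 2 by ring, this]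
    field_simp
  obtain ⟨T, hT1, hT2⟩ := exists_net (Y := Y) ε⁻¹ hδ
  let e := stdOrthonormalBasis ℂ F
  have hm : ∀ c : Y, MeasurableSet (Metric.closedBall c (2 * δ)) := fun c =>
    measurableSet_closedBall
  refine ⟨T × Fin (Module.finrank ℂ F), inferInstance,
    fun p => (Metric.closedBall p.1.1 (2 * δ)).indicator fun _ => e p.2,
    (volume.real (Metric.closedBall (0 : Y) (2 * δ)))⁻¹, by positivity,
    fun p => memLp_indicator_const 2 (hm _) _ (Or.inr measure_closedBall_lt_top.ne), fun φ hφ => ?_⟩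
  have i0 : Integrable φ := hφ.1.continuous.integrable_of_hasCompactSupport hφ.2
  have i1 := integrable_sq hφ
  have i2 := integrable_gsq hφ
  have i3 := integrable_mul_sq hφ continuous_norm
  have e1 : ∑ p : T × Fin (Module.finrank ℂ F),
      ‖∫ x, ⟪(Metric.closedBall p.1.1 (2 * δ)).indicator (fun _ => e p.2) x, φ x⟫_ℂ‖ ^ 2 =
      ∑ c ∈ T, ‖∫ x in Metric.closedBall c (2 * δ), φ x‖ ^ 2 := by
    rw [Fintype.sum_prod_type, ← Finset.sum_coe_sort T]
    refine Finset.sum_congr rfl fun c _ => ?_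
    rw [← e.sum_sq_norm_inner_right]
    refine Finset.sum_congr rfl fun a _ => ?_
    rw [← integral_inner i0.integrableOn, ← integral_indicator (hm _)]
    congr 3
    funext x
    by_cases hx : x ∈ Metric.closedBall c.1 (2 * δ) <;> simp [hx]
  have e2 : ∫ x, ‖φ x‖ ^ 2 ≤ ε * (∫ x, ‖x‖ * ‖φ x‖ ^ 2) +
      ∑ c ∈ T, ∫ x in Metric.closedBall c (2 * δ), ‖φ x‖ ^ 2 := by
    simp only [← integral_indicator (hm _)]
    rw [← integral_finsetSum _ fun c _ => i1.indicator (hm c), ← integral_const_mul,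
      ← integral_add (i3.const_mul _) (integrable_finsetSum _ fun c _ => i1.indicator (hm c))]
    refine integral_mono i1 ((i3.const_mul _).add
      (integrable_finsetSum _ fun c _ => i1.indicator (hm c))) fun x => ?_
    have p0 : ∀ c ∈ T, 0 ≤ (Metric.closedBall c (2 * δ)).indicator (fun x => ‖φ x‖ ^ 2) x :=
      fun c _ => Set.indicator_nonneg (fun y _ => by positivity) x
    show ‖φ x‖ ^ 2 ≤ ε * (‖x‖ * ‖φ x‖ ^ 2) +
      ∑ c ∈ T, (Metric.closedBall c (2 * δ)).indicator (fun x => ‖φ x‖ ^ 2) x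
    rcases le_total ‖x‖ ε⁻¹ with hx | hx
    · obtain ⟨c, hc, hxc⟩ := hT1 x hx
      have := Finset.single_le_sum p0 hc
      rw [Set.indicator_of_mem hxc] at this
      have : 0 ≤ ε * (‖x‖ * ‖φ x‖ ^ 2) := by positivity
      linarith
    · have := Finset.sum_nonneg p0
      rw [inv_le_iff_one_le_mul₀' hε] at hx
      nlinarith [sq_nonneg ‖φ x‖]
  have e3 : ∑ c ∈ T, ∫ x in Metric.closedBall c (2 * δ), gsq φ x ≤ 5 ^ n * ∫ x, gsq φ x := by
    simp only [← integral_indicator (hm _)]
    rw [← integral_finsetSum _ fun c _ => i2.indicator (hm c), ← integral_const_mul]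
    refine integral_mono (integrable_finsetSum _ fun c _ => i2.indicator (hm c)) (i2.const_mul _)
      fun x => ?_
    show ∑ c ∈ T, (Metric.closedBall c (2 * δ)).indicator (gsq φ) x ≤ 5 ^ n * gsq φ x
    simp only [Set.indicator_apply]
    rw [← Finset.sum_filter, Finset.sum_const, nsmul_eq_mul]
    refine mul_le_mul_of_nonneg_right ?_ (gsq_nonneg φ x)
    exact_mod_cast (by convert hT2 x)
  have e4 := Finset.sum_le_sum fun c (_ : c ∈ T) => local_est c (by positivity : 0 < 2 * δ) hφ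
  rw [Finset.sum_add_distrib, ← Finset.mul_sum, ← Finset.mul_sum] at e4
  have e5 := mul_le_mul_of_nonneg_left e3 (show (0 : ℝ) ≤ 2 ^ n * (2 * (2 * δ)) ^ 2 by positivity)
  rw [← mul_assoc _ (5 ^ n : ℝ), hδ2] at e5
  rw [e1]
  linarith

end Crest.Agent.R330.S

end
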