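import Crest.Agent.R330.IA2

/-! # Row 330, S/Sect: the sector and the `Kill` property (owner helper60) -/

set_option autoImplicit false
set_option linter.unusedSectionVars false

noncomputable section

open MeasureTheory Filter Topology
open scoped InnerProductSpace ContDiff Matrix
open Crest.MathPhysics.MatrixQM (GammaNine)

namespace Crest.Agent.R330.S

/-- `Z_j ↦ i Z_j` with `Z₁ = x₀ + i x₁`, `Z₂ = x₂ + i x₃`. -/
def L3 : Matrix (Fin 9) (Fin 9) ℝ := pl 0 1 + pl 2 3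
/-- `su(2)` generators commuting with `L3`. -/
def R1 : Matrix (Fin 9) (Fin 9) ℝ := pl 0 2 + pl 1 3
/-- `su(2)` generators commuting with `L3`. -/
def R2 : Matrix (Fin 9) (Fin 9) ℝ := pl 0 3 - pl 1 2
/-- `su(2)` generators commuting with `L3`. -/
def R3 : Matrix (Fin 9) (Fin 9) ℝ := pl 0 1 - pl 2 3

/-- The sector. -/
def sec (k : ℝ) : Wts := {(R1, 0), (R2, 0), (R3, 0), (L3, k)}

theorem sec_ok (k : ℝ) : (sec k).OK := by
  intro p hp
  rcases hp with rfl | rfl | rfl | rfl <;>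
    simp only [R1, R2, R3, L3, Matrix.transpose_add, Matrix.transpose_sub, pl_skew] <;> abel

theorem pl_mulVec (i j : Fin 9) (t : Fin 9 → ℝ) (a : Fin 9) :
    (pl i j *ᵥ t) a = (if a = j then t i else 0) - (if a = i then t j else 0) := by
  simp [pl, Matrix.sub_mulVec, Matrix.single_mulVec, Function.update_apply]

theorem exists_rel (t : Fin 9 → ℝ) : ∃ c₁ c₂ c₃ : ℝ, |c₁| ≤ 1 ∧ |c₂| ≤ 1 ∧ |c₃| ≤ 1 ∧
    L3 *ᵥ t = c₁ • (R1 *ᵥ t) + c₂ • (R2 *ᵥ t) + c₃ • (R3 *ᵥ t) := by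
  by_cases h : t 0 ^ 2 + t 1 ^ 2 + t 2 ^ 2 + t 3 ^ 2 = 0
  · have h0 : t 0 = 0 := by nlinarith [sq_nonneg (t 0), sq_nonneg (t 1), sq_nonneg (t 2), sq_nonneg (t 3)]
    have h1 : t 1 = 0 := by nlinarith [sq_nonneg (t 0), sq_nonneg (t 1), sq_nonneg (t 2), sq_nonneg (t 3)]
    have h2 : t 2 = 0 := by nlinarith [sq_nonneg (t 0), sq_nonneg (t 1), sq_nonneg (t 2), sq_nonneg (t 3)]
    have h3 : t 3 = 0 := by nlinarith [sq_nonneg (t 0), sq_nonneg (t 1), sq_nonneg (t 2), sq_nonneg (t 3)]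
    refine ⟨0, 0, 0, by simp, by simp, by simp, ?_⟩
    funext a
    simp [L3, Matrix.add_mulVec, pl_mulVec, h0, h1, h2, h3]
  have hp : 0 < t 0 ^ 2 + t 1 ^ 2 + t 2 ^ 2 + t 3 ^ 2 := lt_of_le_of_ne (by positivity) (Ne.symm h)
  refine ⟨2 * (t 1 * t 2 - t 0 * t 3) / (t 0 ^ 2 + t 1 ^ 2 + t 2 ^ 2 + t 3 ^ 2),
    2 * (t 0 * t 2 + t 1 * t 3) / (t 0 ^ 2 + t 1 ^ 2 + t 2 ^ 2 + t 3 ^ 2),
    (t 0 ^ 2 + t 1 ^ 2 - t 2 ^ 2 - t 3 ^ 2) / (t 0 ^ 2 + t 1 ^ 2 + t 2 ^ 2 + t 3 ^ 2), ?_, ?_, ?_, ?_⟩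
  · rw [abs_div, abs_of_pos hp, div_le_one hp, abs_le]
    constructor <;> nlinarith [sq_nonneg (t 1 + t 2), sq_nonneg (t 1 - t 2), sq_nonneg (t 0 + t 3),
      sq_nonneg (t 0 - t 3)]
  · rw [abs_div, abs_of_pos hp, div_le_one hp, abs_le]
    constructor <;> nlinarith [sq_nonneg (t 0 + t 2), sq_nonneg (t 0 - t 2), sq_nonneg (t 1 + t 3),
      sq_nonneg (t 1 - t 3)]
  · rw [abs_div, abs_of_pos hp, div_le_one hp, abs_le]
    constructor <;> nlinarith [sq_nonneg (t 0), sq_nonneg (t 1), sq_nonneg (t 2), sq_nonneg (t 3)]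
  · funext a
    simp only [L3, R1, R2, R3, Matrix.add_mulVec, Matrix.sub_mulVec, Pi.add_apply, Pi.sub_apply,
      Pi.smul_apply, pl_mulVec, smul_eq_mul]
    fin_cases a <;> simp <;> field_simp <;> ring

variable {E F : Type} [NormedAddCommGroup E] [InnerProductSpace ℝ E] [FiniteDimensional ℝ E]
  [MeasurableSpace E] [BorelSpace E]
  [NormedAddCommGroup F] [InnerProductSpace ℂ F] [FiniteDimensional ℂ F]
  {𝔤 : Lie E} (C : Cl (Th E) F) (σ : Spn)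

/-- `L₃ z = Σ c_a R_a z` with `|c_a| ≤ 1`. -/
theorem kill : ∃ k₀ : ℝ, ∀ k, k₀ ≤ k →
    ∀ (Z L H P : Type) [NormedAddCommGroup Z] [InnerProductSpace ℝ Z] [FiniteDimensional ℝ Z]
      [NormedAddCommGroup L] [InnerProductSpace ℝ L] [FiniteDimensional ℝ L]
      [NormedAddCommGroup H] [InnerProductSpace ℝ H] [FiniteDimensional ℝ H] [Fintype P]
      [MeasurableSpace Z] [BorelSpace Z] [MeasurableSpace L] [BorelSpace L]
      [MeasurableSpace H] [BorelSpace H] (D : Levi 𝔤 Z L H P),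
      Module.finrank ℝ Z = 1 → Subsingleton L → D.Kill C σ.G (sec k) := by
  refine ⟨‖C.S (mat (sig σ.G L3))‖ + ‖C.S (mat (sig σ.G R1))‖ + ‖C.S (mat (sig σ.G R2))‖ +
    ‖C.S (mat (sig σ.G R3))‖ + 1, fun k hk Z L H P _ _ _ _ _ _ _ _ _ _ _ _ _ _ _ _ D hZ hL
      κ θ R _ f hf q => ?_⟩
  obtain ⟨v, -, hv⟩ := finrank_eq_one_iff'.1 hZ
  choose t ht using fun i => hv (q.1 i)
  have hq : q.1 = tens t v := by
    ext i
    simp [ht]
  obtain ⟨c₁, c₂, c₃, h₁, h₂, h₃, hc⟩ := exists_rel t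
  have hrel : ((mat L3 q.1, mat L3 q.2) : X Z × X L) = c₁ • (mat R1 q.1, mat R1 q.2) +
      c₂ • (mat R2 q.1, mat R2 q.2) + c₃ • (mat R3 q.1, mat R3 q.2) := by
    refine Prod.ext ?_ ?_
    · simp only [Prod.fst_add, Prod.smul_fst, hq, mat_tens, hc]
      ext a
      simp [add_smul, mul_smul]
    · ext a
      exact Subsingleton.elim _ _
  have e0 := hf.2.2.2.1 (L3, k) (by simp [sec]) q
  have e1 := hf.2.2.2.1 (R1, 0) (by simp [sec]) q
  have e2 := hf.2.2.2.1 (R2, 0) (by simp [sec]) q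
  have e3 := hf.2.2.2.1 (R3, 0) (by simp [sec]) q
  simp only [Complex.ofReal_zero, zero_mul, zero_smul, add_zero] at e0 e1 e2 e3
  rw [hrel, map_add, map_add, map_smul, map_smul, map_smul, e1, e2, e3] at e0
  have e4 : ((k : ℂ) * Complex.I) • f q = c₁ • C.S (mat (sig σ.G R1)) (f q) +
      c₂ • C.S (mat (sig σ.G R2)) (f q) + c₃ • C.S (mat (sig σ.G R3)) (f q) -
        C.S (mat (sig σ.G L3)) (f q) := by
    rw [e0]; abel
  have bd : ∀ (c : ℝ) (T : F →L[ℂ] F), |c| ≤ 1 → ‖c • T (f q)‖ ≤ ‖T‖ * ‖f q‖ := by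
    intro c T hc
    rw [norm_smul, Real.norm_eq_abs]
    exact (mul_le_of_le_one_left (norm_nonneg _) hc).trans (T.le_opNorm _)
  have n1 := norm_nonneg (C.S (mat (sig σ.G L3)))
  have n2 := norm_nonneg (C.S (mat (sig σ.G R1)))
  have n3 := norm_nonneg (C.S (mat (sig σ.G R2)))
  have n4 := norm_nonneg (C.S (mat (sig σ.G R3)))
  have e5 : k * ‖f q‖ ≤ ‖C.S (mat (sig σ.G R1))‖ * ‖f q‖ + ‖C.S (mat (sig σ.G R2))‖ * ‖f q‖ +
      ‖C.S (mat (sig σ.G R3))‖ * ‖f q‖ + ‖C.S (mat (sig σ.G L3))‖ * ‖f q‖ := by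
    have : ‖((k : ℂ) * Complex.I) • f q‖ = k * ‖f q‖ := by
      rw [norm_smul, norm_mul, Complex.norm_I, mul_one, Complex.norm_real, Real.norm_eq_abs,
        abs_of_nonneg (by linarith)]
    rw [← this, e4]
    exact (norm_sub_le _ _).trans (add_le_add ((norm_add₃_le).trans
      (add_le_add (add_le_add (bd _ _ h₁) (bd _ _ h₂)) (bd _ _ h₃))) (ContinuousLinearMap.le_opNorm _ _))
  have := mul_le_mul_of_nonneg_right hk (norm_nonneg (f q))
  exact norm_le_zero_iff.1 (by nlinarith)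

end Crest.Agent.R330.S

end
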